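import Vale.Agent.P256.Defs

namespace Vale.Agent.P256
open Matrix

namespace CxAux

noncomputable abbrev cc {p q : Type} (M : Matrix p q ℝ) : Matrix p q ℂ := M.map (fun a => (a : ℂ))

theorem cc_mul {p q s : Type} [Fintype q] (M : Matrix p q ℝ) (N : Matrix q s ℝ) :
    cc (M * N) = cc M * cc N := by
  ext i j
  simp [cc, Matrix.mul_apply]

theorem det_ne {k : ℕ} (S T : Matrix (Fin k) (Fin k) ℝ) (hS : S.IsSymm) (hT : T.PosDef) (b : ℝ)
    (hb : b ≠ 0) : (cc S + (Complex.I * b) • cc T).det ≠ 0 := by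
  intro h
  obtain ⟨v, hv0, hv⟩ := Matrix.exists_mulVec_eq_zero_iff.2 h
  set p : Fin k → ℝ := fun i => (v i).re with hp
  set q : Fin k → ℝ := fun i => (v i).im with hq
  have h1 : S *ᵥ p = b • T *ᵥ q := by
    funext i
    have := congrArg Complex.re (congrFun hv i)
    simp only [mulVec, dotProduct, Matrix.add_apply, Matrix.smul_apply, map_apply, smul_eq_mul,
      Complex.re_sum, Pi.zero_apply, Complex.zero_re] at this
    simp only [mulVec, dotProduct, Pi.smul_apply, smul_eq_mul, Finset.mul_sum]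
    rw [← sub_eq_zero, ← Finset.sum_sub_distrib, ← this]
    refine Finset.sum_congr rfl fun j _ => ?_
    simp [hp, hq]
    ring
  have h2 : S *ᵥ q = (-b) • T *ᵥ p := by
    funext i
    have := congrArg Complex.im (congrFun hv i)
    simp only [mulVec, dotProduct, Matrix.add_apply, Matrix.smul_apply, map_apply, smul_eq_mul,
      Complex.im_sum, Pi.zero_apply, Complex.zero_im] at this
    simp only [mulVec, dotProduct, Pi.smul_apply, smul_eq_mul, Finset.mul_sum]
    rw [← sub_eq_zero, ← Finset.sum_sub_distrib, ← this]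
    refine Finset.sum_congr rfl fun j _ => ?_
    simp [hp, hq]
    ring
  have h3 : q ⬝ᵥ S *ᵥ p = p ⬝ᵥ S *ᵥ q := by
    rw [dotProduct_mulVec, ← mulVec_transpose, hS.eq, dotProduct_comm]
  rw [h1, h2, dotProduct_smul, dotProduct_smul, smul_eq_mul, smul_eq_mul] at h3
  have h4 : q ⬝ᵥ T *ᵥ q + p ⬝ᵥ T *ᵥ p = 0 := by
    apply mul_left_cancel₀ hb
    linarith
  have n1 : 0 ≤ q ⬝ᵥ T *ᵥ q := by simpa using hT.posSemidef.dotProduct_mulVec_nonneg q
  have n2 : 0 ≤ p ⬝ᵥ T *ᵥ p := by simpa using hT.posSemidef.dotProduct_mulVec_nonneg p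
  have p0 : p = 0 := by
    by_contra hne
    have : 0 < p ⬝ᵥ T *ᵥ p := by simpa using hT.dotProduct_mulVec_pos hne
    linarith
  have q0 : q = 0 := by
    by_contra hne
    have : 0 < q ⬝ᵥ T *ᵥ q := by simpa using hT.dotProduct_mulVec_pos hne
    linarith
  apply hv0
  funext i
  exact Complex.ext (congrFun p0 i) (congrFun q0 i)

theorem resolvent {k : ℕ} (D : Matrix (Fin k) (Fin k) ℝ) (hD : D.IsSymm) (b : ℝ) (hb : b ≠ 0) :
    ∃ P R : Matrix (Fin k) (Fin k) ℝ, P.IsSymm ∧ R.PosDef ∧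
      (cc D + (Complex.I * b) • cc (1 : Matrix (Fin k) (Fin k) ℝ)) *
        (cc P - (Complex.I * b) • cc R) = 1 := by
  set G : Matrix (Fin k) (Fin k) ℝ := D * D + (b ^ 2) • 1 with hG
  have hDD : (D * D).PosSemidef := by
    have := posSemidef_conjTranspose_mul_self D
    rwa [conjTranspose_eq_transpose_of_trivial, hD.eq] at this
  have hGp : G.PosDef := PosDef.posSemidef_add hDD (PosDef.one.smul (by positivity))
  have hu : IsUnit G.det := isUnit_iff_ne_zero.2 hGp.det_pos.ne'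
  have e1 : G * G⁻¹ = 1 := Matrix.mul_nonsing_inv _ hu
  have e2 : G⁻¹ * G = 1 := Matrix.nonsing_inv_mul _ hu
  have hc : D * G = G * D := by
    simp [hG, Matrix.mul_add, Matrix.add_mul, Matrix.mul_assoc]
  have hcomm : D * G⁻¹ = G⁻¹ * D := by
    calc D * G⁻¹ = (G⁻¹ * G) * D * G⁻¹ := by rw [e2, Matrix.one_mul]
      _ = G⁻¹ * (D * G) * G⁻¹ := by rw [hc]; simp only [Matrix.mul_assoc]
      _ = G⁻¹ * D * (G * G⁻¹) := by simp only [Matrix.mul_assoc]
      _ = G⁻¹ * D := by rw [e1, Matrix.mul_one]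
  have hRs : (G⁻¹)ᵀ = G⁻¹ := by
    have := hGp.inv.isHermitian.eq
    rwa [conjTranspose_eq_transpose_of_trivial] at this
  refine ⟨D * G⁻¹, G⁻¹, ?_, hGp.inv, ?_⟩
  · unfold Matrix.IsSymm
    rw [transpose_mul, hRs, hD.eq, hcomm]
  · have c1 : cc (1 : Matrix (Fin k) (Fin k) ℝ) = 1 := by
      ext i j
      by_cases h : i = j <;> simp [cc, one_apply, h]
    have c2 : cc G * cc G⁻¹ = 1 := by rw [← cc_mul, e1, c1]
    have c3 : cc G = cc D * cc D + ((b : ℂ) ^ 2) • 1 := by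
      rw [← cc_mul]
      ext i j
      by_cases h : i = j <;> simp [cc, hG, one_apply, h]
    rw [c1, cc_mul]
    refine Eq.trans ?_ c2
    rw [c3]
    have hI : (Complex.I * b) * (Complex.I * b) = -((b : ℂ) ^ 2) := by
      linear_combination (b : ℂ) ^ 2 * Complex.I_mul_I
    simp only [Matrix.add_mul, Matrix.mul_sub, Matrix.mul_smul, Matrix.smul_mul, Matrix.one_mul,
      smul_add, smul_smul, hI, neg_smul, Matrix.mul_assoc]
    abel

theorem adj_eq {k : ℕ} (A B : Matrix (Fin k) (Fin k) ℂ) (h : A * B = 1) :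
    A.adjugate = A.det • B := by
  calc A.adjugate = A.adjugate * (A * B) := by rw [h, Matrix.mul_one]
    _ = A.det • B := by rw [← Matrix.mul_assoc, adjugate_mul, Matrix.smul_mul, Matrix.one_mul]

theorem ext_cc {r m : ℕ} (Φ : Matrix (Fin r) (Fin r) ℝ →ₗ[ℝ] Matrix (Fin m) (Fin m) ℝ)
    (U V : Matrix (Fin r) (Fin r) ℝ) (d z : ℂ) :
    ext Φ (d • (cc U - z • cc V)) = d • (cc (Φ U) - z • cc (Φ V)) := by
  rw [← ext_real Φ U, ← ext_real Φ V]
  ext i j
  simp only [ext, cc, of_apply, Matrix.smul_apply, Matrix.sub_apply, map_apply, smul_eq_mul,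
    Algebra.algebraMap_self, RingHom.id_apply, Complex.coe_algebraMap, Complex.ofReal_sum,
    Complex.ofReal_mul, Finset.mul_sum, mul_sub, ← Finset.sum_sub_distrib]
  refine Finset.sum_congr rfl fun a _ => Finset.sum_congr rfl fun b _ => ?_
  ring

end CxAux

open CxAux

theorem cx_ne {n r m : ℕ}
    (Φ : Matrix (Fin r) (Fin r) ℝ →ₗ[ℝ] Matrix (Fin m) (Fin m) ℝ)
    (hpos : ∀ W : Matrix (Fin r) (Fin r) ℝ, W.PosSemidef → (Φ W).PosSemidef)
    (hs : ∀ W : Matrix (Fin r) (Fin r) ℝ, W.IsSymm → (Φ W).IsSymm)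
    (X : Matrix (Fin n) (Fin n) ℝ) (Z : Matrix (Fin m) (Fin m) ℝ) (Y : Matrix (Fin r) (Fin n) ℝ)
    (hX : X.IsSymm) (hZ : Z.IsSymm) (t : ℂ) (ht : t.im ≠ 0) :
    (MM Φ (t • (1 : Matrix (Fin n) (Fin n) ℂ) - X.map (fun a => (a : ℂ)))
      (t • (1 : Matrix (Fin m) (Fin m) ℂ) - Z.map (fun a => (a : ℂ)))
      (- Y.map (fun a => (a : ℂ)))).det ≠ 0 := by
  set a := t.re with ha
  set b := t.im with hb
  have htab : t = (a : ℂ) + Complex.I * b := by
    rw [mul_comm]; exact (Complex.re_add_im t).symm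
  set D : Matrix (Fin n) (Fin n) ℝ := a • 1 - X with hD
  have hDs : D.IsSymm := (isSymm_one.smul a).sub hX
  obtain ⟨P, R, hP, hR, hres⟩ := resolvent D hDs b ht
  have eA : t • (1 : Matrix (Fin n) (Fin n) ℂ) - X.map (fun a => (a : ℂ)) =
      cc D + (Complex.I * b) • cc (1 : Matrix (Fin n) (Fin n) ℝ) := by
    ext i j
    rw [htab]
    by_cases h : i = j <;> simp [cc, hD, one_apply, h]
    ring
  have hd := det_ne D 1 hDs PosDef.one b ht
  rw [eA]
  set A := cc D + (Complex.I * b) • cc (1 : Matrix (Fin n) (Fin n) ℝ) with hA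
  have eY : (-cc Y) * A.adjugate * (-cc Y)ᵀ =
      A.det • (cc (Y * P * Yᵀ) - (Complex.I * b) • cc (Y * R * Yᵀ)) := by
    have hT : (cc Y)ᵀ = cc Yᵀ := rfl
    rw [adj_eq A _ hres, transpose_neg, hT, cc_mul, cc_mul, cc_mul, cc_mul]
    simp only [Matrix.neg_mul, Matrix.mul_neg, neg_neg, Matrix.mul_smul, Matrix.smul_mul,
      Matrix.mul_sub, Matrix.sub_mul, smul_sub, smul_neg]
    abel
  have s1 : (Y * P * Yᵀ).IsSymm := by
    unfold Matrix.IsSymm
    rw [transpose_mul, transpose_mul, transpose_transpose, hP.eq, Matrix.mul_assoc]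
  have s2 : (Y * R * Yᵀ).PosSemidef := by
    have := hR.posSemidef.mul_mul_conjTranspose_same Y
    rwa [conjTranspose_eq_transpose_of_trivial] at this
  have eM : MM Φ A (t • (1 : Matrix (Fin m) (Fin m) ℂ) - Z.map (fun a => (a : ℂ)))
      (- Y.map (fun a => (a : ℂ))) =
      A.det • (cc (a • 1 - Z - Φ (Y * P * Yᵀ)) +
        (Complex.I * b) • cc (1 + Φ (Y * R * Yᵀ))) := by
    unfold MM
    rw [eY, ext_cc, ← smul_sub]
    congr 1
    ext i j
    rw [htab]
    by_cases h : i = j <;> simp [cc, one_apply, h] <;> ring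
  rw [eM, det_smul]
  refine mul_ne_zero (pow_ne_zero _ hd) (det_ne _ _ ?_ ?_ b ht)
  · exact ((isSymm_one.smul a).sub hZ).sub (hs _ s1)
  · exact PosDef.add_posSemidef PosDef.one (hpos _ s2)

end Vale.Agent.P256
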