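import Mathlib

namespace Vale.Agent.P256
open Matrix

/-- `p` is a homogeneous polynomial, hyperbolic with respect to `e`: `p e > 0` and every
complex root of `t ↦ p (t e - x)` is real. -/
def Hyperbolic {k : ℕ} (p : MvPolynomial (Fin k) ℝ) (e : Fin k → ℝ) : Prop :=
  (∃ d, p.IsHomogeneous d) ∧ 0 < MvPolynomial.eval e p ∧
    ∀ (x : Fin k → ℝ) (t : ℂ),
      MvPolynomial.aeval (fun i => t * (e i : ℂ) - (x i : ℂ)) p = 0 → t.im = 0

/-- The closed hyperbolicity cone: all (real) roots of `t ↦ p (t e - x)` are nonnegative. -/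
def cone {k : ℕ} (p : MvPolynomial (Fin k) ℝ) (e : Fin k → ℝ) : Set (Fin k → ℝ) :=
  {x | ∀ t : ℝ, MvPolynomial.eval (t • e - x) p = 0 → 0 ≤ t}

/-- `K` is a spectrahedral shadow: finitely many extra variables, real symmetric matrices of one
finite size. -/
def IsShadow {k : ℕ} (K : Set (Fin k → ℝ)) : Prop :=
  ∃ (ι κ : Type) (_ : Fintype ι) (_ : Fintype κ) (A₀ : Matrix ι ι ℝ) (A : Fin k → Matrix ι ι ℝ)
    (B : κ → Matrix ι ι ℝ), A₀.IsSymm ∧ (∀ i, (A i).IsSymm) ∧ (∀ j, (B j).IsSymm) ∧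
    K = {x | ∃ u : κ → ℝ, (A₀ + ∑ i, x i • A i + ∑ j, u j • B j).PosSemidef}

/-- Extension of scalars of a real linear map between matrix spaces. -/
noncomputable def ext {r m : ℕ}
    (Φ : Matrix (Fin r) (Fin r) ℝ →ₗ[ℝ] Matrix (Fin m) (Fin m) ℝ) {R : Type} [CommRing R]
    [Algebra ℝ R] (W : Matrix (Fin r) (Fin r) R) : Matrix (Fin m) (Fin m) R :=
  Matrix.of fun i j => ∑ a, ∑ b, algebraMap ℝ R (Φ (Matrix.single a b 1) i j) * W a b

/-- The matrix `det X • Z - Φ (Y adj(X) Yᵀ)` over any real algebra. -/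
noncomputable def MM {n r m : ℕ}
    (Φ : Matrix (Fin r) (Fin r) ℝ →ₗ[ℝ] Matrix (Fin m) (Fin m) ℝ) {R : Type} [CommRing R]
    [Algebra ℝ R] (X : Matrix (Fin n) (Fin n) R) (Z : Matrix (Fin m) (Fin m) R)
    (Y : Matrix (Fin r) (Fin n) R) : Matrix (Fin m) (Fin m) R :=
  X.det • Z - ext Φ (Y * X.adjugate * Yᵀ)

theorem ext_real {r m : ℕ}
    (Φ : Matrix (Fin r) (Fin r) ℝ →ₗ[ℝ] Matrix (Fin m) (Fin m) ℝ)
    (W : Matrix (Fin r) (Fin r) ℝ) : ext Φ W = Φ W := by
  ext i j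
  conv_rhs => rw [Matrix.matrix_eq_sum_single W]
  simp only [ext, Matrix.of_apply, map_sum, Matrix.sum_apply, Algebra.algebraMap_self,
    RingHom.id_apply]
  refine Finset.sum_congr rfl fun a _ => Finset.sum_congr rfl fun b _ => ?_
  have : Matrix.single a b (W a b) = W a b • Matrix.single a b (1 : ℝ) := by
    rw [Matrix.smul_single, smul_eq_mul, mul_one]
  rw [this, map_smul, Matrix.smul_apply, smul_eq_mul, mul_comm]

end Vale.Agent.P256
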