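import Vale.Agent.P256.GFac

namespace Vale.Agent.P256

theorem gcone_fac {l d : ℕ} {q : MvPolynomial (Fin l) ℝ} (hq : q.IsHomogeneous d)
    {f : Fin l → ℝ} (H : Hyperbolic q f) (y : Fin l → ℝ) :
    ∃ ρ : Fin d → ℝ, ∀ s : ℝ, MvPolynomial.eval (s • f - y) q =
      MvPolynomial.eval f q * ∏ j, (s - ρ j) := by
  have hf : MvPolynomial.aeval (fun i => (f i : ℂ)) q ≠ 0 := by
    rw [aeval_ofReal]
    exact_mod_cast H.2.1.ne'
  obtain ⟨ρ, hρ⟩ := factor hq (fun i => (f i : ℂ)) (fun i => -(y i : ℂ)) hf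
  have him : ∀ j, (ρ j).im = 0 := by
    intro j
    apply H.2.2 y (ρ j)
    have h1 := hρ (ρ j)
    rw [Finset.prod_eq_zero (Finset.mem_univ j) (sub_self _), mul_zero] at h1
    simpa only [sub_eq_add_neg] using h1
  refine ⟨fun j => (ρ j).re, fun s => ?_⟩
  have h1 := hρ s
  have h2 : (fun i => (s : ℂ) * (f i : ℂ) + -(y i : ℂ)) = fun i => (((s • f - y) i : ℝ) : ℂ) := by
    funext i
    simp [sub_eq_add_neg]
  have h3 : ∀ j, ρ j = ((ρ j).re : ℂ) := fun j => by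
    apply Complex.ext <;> simp [him j]
  rw [h2, aeval_ofReal, aeval_ofReal] at h1
  have h4 : ∏ j, ((s : ℂ) - ρ j) = ((∏ j, (s - (ρ j).re) : ℝ) : ℂ) := by
    push_cast
    exact Finset.prod_congr rfl fun j _ => by rw [← h3 j]
  rw [h4] at h1
  exact_mod_cast h1

theorem gcone_iff {l d : ℕ} {q : MvPolynomial (Fin l) ℝ} (hq : q.IsHomogeneous d)
    {f : Fin l → ℝ} (H : Hyperbolic q f) (y : Fin l → ℝ) :
    y ∈ cone q f ↔ ∀ t : ℝ, t < 0 →
      MvPolynomial.eval f q * (-t) ^ d ≤ |MvPolynomial.eval (t • f - y) q| := by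
  have hf := H.2.1
  constructor
  · intro hy t ht
    obtain ⟨ρ, hρ⟩ := gcone_fac hq H y
    have h0 : ∀ j, 0 ≤ ρ j := by
      intro j
      apply hy
      rw [hρ, Finset.prod_eq_zero (Finset.mem_univ j) (sub_self _), mul_zero]
    rw [hρ, abs_mul, abs_of_pos hf, Finset.abs_prod]
    refine mul_le_mul_of_nonneg_left ?_ hf.le
    have : (-t) ^ d = ∏ _j : Fin d, (-t) := by simp
    rw [this]
    refine Finset.prod_le_prod (fun _ _ => by linarith) fun j _ => ?_
    rw [abs_of_nonpos (by linarith [h0 j])]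
    linarith [h0 j]
  · intro h t ht
    by_contra hc
    have hc' : t < 0 := not_le.1 hc
    have h1 := h t hc'
    rw [ht, abs_zero] at h1
    have h2 : 0 < MvPolynomial.eval f q * (-t) ^ d := mul_pos hf (pow_pos (by linarith) _)
    linarith

theorem cone_closed {l d : ℕ} {q : MvPolynomial (Fin l) ℝ} (hq : q.IsHomogeneous d)
    {f : Fin l → ℝ} (H : Hyperbolic q f) : IsClosed (cone q f) := by
  have : cone q f = ⋂ t : ℝ, ⋂ _ : t < 0,
      {y | MvPolynomial.eval f q * (-t) ^ d ≤ |MvPolynomial.eval (t • f - y) q|} := by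
    ext y
    simp only [Set.mem_iInter, Set.mem_setOf_eq]
    exact gcone_iff hq H y
  rw [this]
  refine isClosed_iInter fun t => isClosed_iInter fun _ => isClosed_le continuous_const ?_
  exact ((MvPolynomial.continuous_eval q).comp (continuous_const.sub continuous_id)).abs

theorem not_neg {l d : ℕ} {q : MvPolynomial (Fin l) ℝ} (hq : q.IsHomogeneous d) (hd : 0 < d)
    {f : Fin l → ℝ} (H : Hyperbolic q f) {y : Fin l → ℝ} (h1 : y ∈ cone q f)
    (h2 : -y ∈ cone q f) : MvPolynomial.eval y q = 0 := by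
  obtain ⟨ρ, hρ⟩ := gcone_fac hq H y
  have hr : MvPolynomial.eval (ρ ⟨0, hd⟩ • f - y) q = 0 := by
    rw [hρ, Finset.prod_eq_zero (Finset.mem_univ ⟨0, hd⟩) (sub_self _), mul_zero]
  have ha : 0 ≤ ρ ⟨0, hd⟩ := h1 _ hr
  have hb : 0 ≤ -ρ ⟨0, hd⟩ := by
    apply h2
    have e : (-ρ ⟨0, hd⟩) • f - -y = (-1 : ℝ) • (ρ ⟨0, hd⟩ • f - y) := by
      ext i; simp; ring
    rw [e, scaleR hq, hr, mul_zero]
  have hz : ρ ⟨0, hd⟩ = 0 := by linarith
  rw [hz] at hr
  have e : y = (-1 : ℝ) • ((0 : ℝ) • f - y) := by ext i; simp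
  rw [e, scaleR hq, hr, mul_zero]

theorem cone_smul {l d : ℕ} {q : MvPolynomial (Fin l) ℝ} (hq : q.IsHomogeneous d)
    {f : Fin l → ℝ} (H : Hyperbolic q f) {y : Fin l → ℝ} (h : y ∈ cone q f) {c : ℝ}
    (hc : 0 ≤ c) : c • y ∈ cone q f := by
  intro t ht
  rcases hc.eq_or_lt with h0 | h0
  · rw [← h0, zero_smul, sub_zero, scaleR hq] at ht
    have h1 := (mul_eq_zero.1 ht).resolve_right H.2.1.ne'
    exact (eq_zero_of_pow_eq_zero h1).ge
  · have e : t • f - c • y = c • ((t / c) • f - y) := by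
      rw [smul_sub, smul_smul, mul_div_cancel₀ _ h0.ne']
    rw [e, scaleR hq] at ht
    have h1 := (mul_eq_zero.1 ht).resolve_left (pow_pos h0 _).ne'
    have h2 := h _ h1
    have h3 := mul_nonneg h2 h0.le
    rwa [div_mul_cancel₀ _ h0.ne'] at h3

theorem cone_add {l d : ℕ} {q : MvPolynomial (Fin l) ℝ} (hq : q.IsHomogeneous d)
    {f : Fin l → ℝ} (H : Hyperbolic q f) (hS : IsShadow (cone q f)) {y z : Fin l → ℝ}
    (h1 : y ∈ cone q f) (h2 : z ∈ cone q f) : y + z ∈ cone q f := by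
  obtain ⟨ι, κ, _, _, A₀, A, B, -, -, -, hK⟩ := hS
  have hm : (1 / 2 : ℝ) • (y + z) ∈ cone q f := by
    rw [hK] at h1 h2 ⊢
    obtain ⟨u, hu⟩ := h1
    obtain ⟨w, hw⟩ := h2
    refine ⟨(1 / 2 : ℝ) • (u + w), ?_⟩
    have h3 := (hu.add hw).smul (by norm_num : (0 : ℝ) ≤ 1 / 2)
    have e1 : ∑ i, ((1 / 2 : ℝ) • (y + z)) i • A i =
        (1 / 2 : ℝ) • (∑ i, y i • A i + ∑ i, z i • A i) := by
      rw [← Finset.sum_add_distrib, Finset.smul_sum]
      refine Finset.sum_congr rfl fun i _ => ?_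
      rw [← add_smul, smul_smul]
      rfl
    have e2 : ∑ j, ((1 / 2 : ℝ) • (u + w)) j • B j =
        (1 / 2 : ℝ) • (∑ j, u j • B j + ∑ j, w j • B j) := by
      rw [← Finset.sum_add_distrib, Finset.smul_sum]
      refine Finset.sum_congr rfl fun i _ => ?_
      rw [← add_smul, smul_smul]
      rfl
    rw [e1, e2]
    convert h3 using 1
    module
  have h4 := cone_smul hq H hm (by norm_num : (0 : ℝ) ≤ 2)
  rwa [smul_smul, show (2 : ℝ) * (1 / 2) = 1 by norm_num, one_smul] at h4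

theorem self_mem {l d : ℕ} {q : MvPolynomial (Fin l) ℝ} (hq : q.IsHomogeneous d)
    {f : Fin l → ℝ} (H : Hyperbolic q f) : f ∈ cone q f := by
  intro t ht
  have e : t • f - f = (t - 1) • f := by rw [sub_smul, one_smul]
  rw [e, scaleR hq] at ht
  have h1 := eq_zero_of_pow_eq_zero ((mul_eq_zero.1 ht).resolve_right H.2.1.ne')
  linarith

end Vale.Agent.P256
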