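import Vale.Agent.P256.GGar
import Vale.Agent.P256.Cx

namespace Vale.Agent.P256
open Matrix

namespace GCxAux

open CxAux

theorem extV_cc {r l : ℕ} (Φ : Matrix (Fin r) (Fin r) ℝ →ₗ[ℝ] (Fin l → ℝ))
    (U V : Matrix (Fin r) (Fin r) ℝ) (d z : ℂ) (i : Fin l) :
    extV Φ (d • (cc U - z • cc V)) i = d * ((Φ U i : ℂ) - z * (Φ V i : ℂ)) := by
  rw [← extV_real Φ U, ← extV_real Φ V]
  simp only [extV, cc, Matrix.smul_apply, Matrix.sub_apply, map_apply, smul_eq_mul,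
    Algebra.algebraMap_self, RingHom.id_apply, Complex.coe_algebraMap, Complex.ofReal_sum,
    Complex.ofReal_mul, Finset.mul_sum, mul_sub, ← Finset.sum_sub_distrib]
  refine Finset.sum_congr rfl fun a _ => Finset.sum_congr rfl fun b _ => ?_
  ring

end GCxAux

open CxAux GCxAux in
theorem gcx {n r l d : ℕ} {q : MvPolynomial (Fin l) ℝ} (hq : q.IsHomogeneous d)
    {f : Fin l → ℝ} (H : Hyperbolic q f) (Φ : Matrix (Fin r) (Fin r) ℝ →ₗ[ℝ] (Fin l → ℝ))
    (hpos : ∀ W : Matrix (Fin r) (Fin r) ℝ, W.PosSemidef → Φ W ∈ cone q f)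
    (X : Matrix (Fin n) (Fin n) ℝ) (z : Fin l → ℝ) (Y : Matrix (Fin r) (Fin n) ℝ)
    (hX : X.IsSymm) (t : ℂ) (ht : t.im ≠ 0) :
    MvPolynomial.aeval (MV Φ (t • (1 : Matrix (Fin n) (Fin n) ℂ) - X.map (fun a => (a : ℂ)))
      (fun i => t * (f i : ℂ) - (z i : ℂ)) (- Y.map (fun a => (a : ℂ)))) q ≠ 0 := by
  set a := t.re with ha
  set b := t.im with hb
  have htab : t = (a : ℂ) + Complex.I * b := by
    rw [mul_comm]; exact (Complex.re_add_im t).symm
  set D : Matrix (Fin n) (Fin n) ℝ := a • 1 - X with hD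
  have hDs : D.IsSymm := (isSymm_one.smul a).sub hX
  obtain ⟨P, R, hP, hR, hres⟩ := resolvent D hDs b ht
  have eA : t • (1 : Matrix (Fin n) (Fin n) ℂ) - X.map (fun a => (a : ℂ)) =
      cc D + (Complex.I * b) • cc (1 : Matrix (Fin n) (Fin n) ℝ) := by
    ext i j
    rw [htab]
    by_cases h : i = j <;> simp [cc, hD, one_apply, h]
    ring
  have hd := det_ne D 1 hDs PosDef.one b ht
  rw [eA]
  set A := cc D + (Complex.I * b) • cc (1 : Matrix (Fin n) (Fin n) ℝ) with hA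
  have eY : (-cc Y) * A.adjugate * (-cc Y)ᵀ =
      A.det • (cc (Y * P * Yᵀ) - (Complex.I * b) • cc (Y * R * Yᵀ)) := by
    have hT : (cc Y)ᵀ = cc Yᵀ := rfl
    rw [adj_eq A _ hres, transpose_neg, hT, cc_mul, cc_mul, cc_mul, cc_mul]
    simp only [Matrix.neg_mul, Matrix.mul_neg, neg_neg, Matrix.mul_smul, Matrix.smul_mul,
      Matrix.mul_sub, Matrix.sub_mul, smul_sub, smul_neg]
    abel
  have s2 : (Y * R * Yᵀ).PosSemidef := by
    have := hR.posSemidef.mul_mul_conjTranspose_same Y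
    rwa [conjTranspose_eq_transpose_of_trivial] at this
  have eM : MV Φ A (fun i => t * (f i : ℂ) - (z i : ℂ)) (- Y.map (fun a => (a : ℂ))) =
      A.det • (fun i => (((a • f - z - Φ (Y * P * Yᵀ)) i : ℝ) : ℂ) +
        Complex.I * b * ((f i : ℂ) + (Φ (Y * R * Yᵀ) i : ℂ))) := by
    unfold MV
    rw [eY]
    ext i
    simp only [Pi.sub_apply, Pi.smul_apply, smul_eq_mul, extV_cc]
    rw [htab]
    push_cast
    ring
  rw [eM, scaleV hq]
  exact mul_ne_zero (pow_ne_zero _ hd) (garding hq H (hpos _ s2) _ ht)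

end Vale.Agent.P256
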