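import Vale.Agent.P256.Defs

namespace Vale.Agent.P256
open Matrix

/-- Extension of scalars of a real linear map from matrices to vectors. -/
noncomputable def extV {r l : ℕ} (Φ : Matrix (Fin r) (Fin r) ℝ →ₗ[ℝ] (Fin l → ℝ)) {R : Type}
    [CommRing R] [Algebra ℝ R] (W : Matrix (Fin r) (Fin r) R) : Fin l → R :=
  fun i => ∑ a, ∑ b, algebraMap ℝ R (Φ (Matrix.single a b 1) i) * W a b

/-- The vector `det X • z - Φ (Y adj(X) Yᵀ)` over any real algebra. -/
noncomputable def MV {n r l : ℕ} (Φ : Matrix (Fin r) (Fin r) ℝ →ₗ[ℝ] (Fin l → ℝ)) {R : Type}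
    [CommRing R] [Algebra ℝ R] (X : Matrix (Fin n) (Fin n) R) (z : Fin l → R)
    (Y : Matrix (Fin r) (Fin n) R) : Fin l → R :=
  X.det • z - extV Φ (Y * X.adjugate * Yᵀ)

theorem extV_real {r l : ℕ} (Φ : Matrix (Fin r) (Fin r) ℝ →ₗ[ℝ] (Fin l → ℝ))
    (W : Matrix (Fin r) (Fin r) ℝ) : extV Φ W = Φ W := by
  ext i
  conv_rhs => rw [Matrix.matrix_eq_sum_single W]
  simp only [extV, map_sum, Finset.sum_apply, Algebra.algebraMap_self, RingHom.id_apply]
  refine Finset.sum_congr rfl fun a _ => Finset.sum_congr rfl fun b _ => ?_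
  have : Matrix.single a b (W a b) = W a b • Matrix.single a b (1 : ℝ) := by
    rw [Matrix.smul_single, smul_eq_mul, mul_one]
  rw [this, map_smul, Pi.smul_apply, smul_eq_mul, mul_comm]

theorem scaleV {l d : ℕ} {q : MvPolynomial (Fin l) ℝ} (hq : q.IsHomogeneous d) {R : Type}
    [CommRing R] [Algebra ℝ R] (c : R) (v : Fin l → R) :
    MvPolynomial.aeval (c • v) q = c ^ d * MvPolynomial.aeval v q := by
  conv_lhs => rw [q.as_sum]
  conv_rhs => rw [q.as_sum]
  simp only [map_sum, Finset.mul_sum, MvPolynomial.aeval_monomial]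
  refine Finset.sum_congr rfl fun a ha => ?_
  have hd : ∑ i, a i = d := by
    have h1 := hq.degree_eq_sum_deg_support ha
    rw [h1]
    exact (Finset.sum_subset (Finset.subset_univ _) (by simp)).symm
  rw [Finsupp.prod_fintype _ _ (by simp), Finsupp.prod_fintype _ _ (by simp)]
  simp only [Pi.smul_apply, smul_eq_mul, mul_pow, Finset.prod_mul_distrib,
    Finset.prod_pow_eq_pow_sum, hd]
  ring

theorem scaleR {l d : ℕ} {q : MvPolynomial (Fin l) ℝ} (hq : q.IsHomogeneous d) (c : ℝ)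
    (v : Fin l → ℝ) : MvPolynomial.eval (c • v) q = c ^ d * MvPolynomial.eval v q := by
  have := scaleV hq c v
  simpa only [MvPolynomial.aeval_eq_eval] using this

end Vale.Agent.P256
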