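import Vale.Agent.P256.GDefs

namespace Vale.Agent.P256

open Polynomial in
theorem gfac_prod {ι : Type} (s : Finset ι) (v w : ι → ℂ) (a : ι → ℕ) :
    (∏ i ∈ s, (C (v i) * X + C (w i)) ^ a i).natDegree ≤ ∑ i ∈ s, a i ∧
      (∏ i ∈ s, (C (v i) * X + C (w i)) ^ a i).coeff (∑ i ∈ s, a i) = ∏ i ∈ s, v i ^ a i := by
  classical
  induction s using Finset.induction_on with
  | empty => simp
  | insert j s hj ih =>
    have h1 : ((C (v j) * X + C (w j)) ^ a j).natDegree ≤ a j := by
      have := natDegree_pow_le_of_le (a j) (natDegree_linear_le (a := v j) (b := w j))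
      rwa [mul_one] at this
    have h2 : ((C (v j) * X + C (w j)) ^ a j).coeff (a j) = v j ^ a j := by
      have := coeff_pow_of_natDegree_le (m := a j) (natDegree_linear_le (a := v j) (b := w j))
      rw [mul_one] at this
      rw [this]
      simp
    rw [Finset.prod_insert hj, Finset.sum_insert hj, Finset.prod_insert hj]
    refine ⟨natDegree_mul_le.trans (add_le_add h1 ih.1), ?_⟩
    rw [coeff_mul_add_eq_of_natDegree_le h1 ih.1, h2, ih.2]

open Polynomial in
theorem gfac_poly {l d : ℕ} {q : MvPolynomial (Fin l) ℝ} (hq : q.IsHomogeneous d)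
    (v w : Fin l → ℂ) : ∃ P : ℂ[X], P.natDegree ≤ d ∧ P.coeff d = MvPolynomial.aeval v q ∧
      ∀ s : ℂ, P.eval s = MvPolynomial.aeval (fun i => s * v i + w i) q := by
  have hd : ∀ a ∈ q.support, ∑ i, a i = d := by
    intro a ha
    have h1 := hq.degree_eq_sum_deg_support ha
    rw [h1]
    exact (Finset.sum_subset (Finset.subset_univ _) (by simp)).symm
  have hev : ∀ u : Fin l → ℂ, MvPolynomial.aeval u q =
      ∑ a ∈ q.support, algebraMap ℝ ℂ (q.coeff a) * ∏ i, u i ^ a i := by
    intro u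
    conv_lhs => rw [q.as_sum]
    simp only [map_sum, MvPolynomial.aeval_monomial]
    refine Finset.sum_congr rfl fun a _ => ?_
    rw [Finsupp.prod_fintype _ _ (by simp)]
  refine ⟨∑ a ∈ q.support, C (algebraMap ℝ ℂ (q.coeff a)) *
    ∏ i, (C (v i) * X + C (w i)) ^ a i, ?_, ?_, ?_⟩
  · refine natDegree_sum_le_of_forall_le _ _ fun a ha => (natDegree_C_mul_le _ _).trans ?_
    rw [← hd a ha]
    exact (gfac_prod _ v w a).1
  · rw [finsetSum_coeff, hev]
    refine Finset.sum_congr rfl fun a ha => ?_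
    rw [coeff_C_mul, ← hd a ha, (gfac_prod _ v w a).2]
  · intro s
    rw [eval_finsetSum, hev]
    refine Finset.sum_congr rfl fun a _ => ?_
    rw [eval_C_mul, eval_prod]
    congr 1
    refine Finset.prod_congr rfl fun i _ => ?_
    rw [eval_pow, eval_add, eval_C_mul, eval_X, eval_C, mul_comm]

theorem factor {l d : ℕ} {q : MvPolynomial (Fin l) ℝ} (hq : q.IsHomogeneous d)
    (v w : Fin l → ℂ) (hv : MvPolynomial.aeval v q ≠ 0) :
    ∃ ρ : Fin d → ℂ, ∀ s : ℂ, MvPolynomial.aeval (fun i => s * v i + w i) q =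
      MvPolynomial.aeval v q * ∏ j, (s - ρ j) := by
  obtain ⟨P, h1, h2, h3⟩ := gfac_poly hq v w
  have h4 : P.natDegree = d :=
    le_antisymm h1 (Polynomial.le_natDegree_of_ne_zero (by rw [h2]; exact hv))
  have h5 : P.Splits := IsAlgClosed.splits P
  have h6 : P.roots.toList.length = d := by
    rw [Multiset.length_toList, ← h5.natDegree_eq_card_roots, h4]
  have h7 : P.leadingCoeff = MvPolynomial.aeval v q := by
    rw [Polynomial.leadingCoeff, h4, h2]
  subst h6
  refine ⟨fun j => P.roots.toList.get j, fun s => ?_⟩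
  rw [← h3, h5.eval_eq_prod_roots, h7]
  congr 1
  conv_lhs => rw [← Multiset.coe_toList P.roots, Multiset.map_coe, Multiset.prod_coe]
  conv_lhs => rw [← List.ofFn_get P.roots.toList, List.map_ofFn, List.prod_ofFn]
  rfl

theorem aeval_ofReal {l : ℕ} (q : MvPolynomial (Fin l) ℝ) (x : Fin l → ℝ) :
    MvPolynomial.aeval (fun i => (x i : ℂ)) q = (MvPolynomial.eval x q : ℂ) := by
  induction q using MvPolynomial.induction_on with
  | C a => simp
  | add p q hp hq => simp only [map_add, hp, hq, Complex.ofReal_add]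
  | mul_X p i hp => simp only [map_mul, hp, MvPolynomial.aeval_X, MvPolynomial.eval_X,
      Complex.ofReal_mul]

end Vale.Agent.P256
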