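import Vale.Agent.P256.GFac

namespace Vale.Agent.P256

theorem gar_core {l d : ℕ} (E : (Fin l → ℂ) → ℂ) (hEc : Continuous E)
    (hEs : ∀ (c : ℂ) (v : Fin l → ℂ), E (c • v) = c ^ d * E v)
    (hEf : ∀ v w : Fin l → ℂ, E v ≠ 0 →
      ∃ ρ : Fin d → ℂ, ∀ s : ℂ, E (s • v + w) = E v * ∏ j, (s - ρ j))
    (f y z : Fin l → ℂ)
    (hH : ∀ (a b c : ℝ) (t : ℂ), E (t • f + ((a : ℂ) • f + (b : ℂ) • y + (c : ℂ) • z)) = 0 →
      t.im = 0)
    (hy : ∀ τ : ℝ, E ((τ : ℂ) • f + y) = 0 → τ ≤ 0) {α : ℝ} (hα : 0 < α) (s : ℂ)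
    (hs : 0 < s.im) :
    ‖E (f + y)‖ * s.im ^ d ≤ ‖E (s • (f + y) + (((α : ℂ) * Complex.I) • f + z))‖ := by
  have hg : E (f + y) ≠ 0 := by
    intro h
    have := hy 1 (by simpa using h)
    linarith
  obtain ⟨F, hF⟩ : ∃ F : ℝ → ℂ → ℂ,
      F = fun (β : ℝ) (s : ℂ) =>
        E (s • (f + y) + (((α : ℂ) * Complex.I) • f + (β : ℂ) • z)) := ⟨_, rfl⟩
  have hFc : Continuous fun p : ℝ × ℂ => F p.1 p.2 := by
    rw [hF]
    exact hEc.comp (by fun_prop)
  have hreal : ∀ β : ℝ, ∀ s : ℂ, s.im = 0 → F β s ≠ 0 := by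
    intro β s h0 hz
    have e : s = (s.re : ℂ) := by
      apply Complex.ext <;> simp [h0]
    have := hH s.re s.re β ((α : ℂ) * Complex.I) (by
      rw [← hz, hF]
      simp only
      congr 1
      rw [← e, smul_add]
      abel)
    simp at this
    exact hα.ne' this
  obtain ⟨δ, hδ, hδE⟩ : ∃ δ > 0, ∀ v, ‖v - (f + y)‖ < δ → E v ≠ 0 := by
    have := (hEc.continuousAt (x := f + y)).eventually_ne hg
    obtain ⟨δ, hδ, h⟩ := Metric.eventually_nhds_iff.1 this
    exact ⟨δ, hδ, fun v hv => h (by rwa [dist_eq_norm])⟩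
  obtain ⟨C, hC⟩ : ∃ C : ℝ, C = ‖((α : ℂ) * Complex.I) • f‖ + ‖z‖ := ⟨_, rfl⟩
  have hC0 : 0 ≤ C := by rw [hC]; positivity
  have hbound : ∀ β ∈ Set.Icc (0 : ℝ) 1, ∀ s : ℂ, F β s = 0 → ‖s‖ ≤ C / δ := by
    intro β hβ s hz
    by_contra hc
    push Not at hc
    have hs0 : 0 < ‖s‖ := lt_of_le_of_lt (by positivity) hc
    have hs' : s ≠ 0 := norm_pos_iff.1 hs0
    have e : F β s = s ^ d *
        E ((f + y) + s⁻¹ • (((α : ℂ) * Complex.I) • f + (β : ℂ) • z)) := by
      rw [← hEs, hF, smul_add s (f + y), smul_smul, mul_inv_cancel₀ hs', one_smul]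
    rw [e] at hz
    rcases mul_eq_zero.1 hz with h | h
    · exact pow_ne_zero _ hs' h
    · refine hδE _ ?_ h
      rw [add_sub_cancel_left, norm_smul, norm_inv, inv_mul_lt_iff₀ hs0]
      have h1 : ‖((α : ℂ) * Complex.I) • f + (β : ℂ) • z‖ ≤ C := by
        rw [hC]
        refine (norm_add_le _ _).trans (add_le_add le_rfl ?_)
        rw [norm_smul, Complex.norm_real, Real.norm_eq_abs, abs_of_nonneg hβ.1]
        exact mul_le_of_le_one_left (norm_nonneg _) hβ.2
      rw [div_lt_iff₀ hδ] at hc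
      linarith
  let U : Set ℝ := {β | ∀ s : ℂ, 0 < s.im → ‖E (f + y)‖ * s.im ^ d ≤ ‖F β s‖}
  let K : Set (ℝ × ℂ) := (Set.Icc (0 : ℝ) 1 ×ˢ Metric.closedBall (0 : ℂ) (C / δ)) ∩
    ({p | 0 ≤ p.2.im} ∩ {p | F p.1 p.2 = 0})
  have hU : IsClosed U := by
    have : U = ⋂ s : ℂ, ⋂ _ : 0 < s.im, {β | ‖E (f + y)‖ * s.im ^ d ≤ ‖F β s‖} := by
      ext β
      simp [U]
    rw [this]
    refine isClosed_iInter fun s => isClosed_iInter fun _ => isClosed_le continuous_const ?_
    exact (hFc.comp (continuous_id.prodMk continuous_const)).norm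
  have hK : IsCompact K :=
    (isCompact_Icc.prod (isCompact_closedBall _ _)).inter_right
      ((isClosed_le continuous_const (by fun_prop)).inter (isClosed_eq hFc continuous_const))
  have hV : IsClosed (Prod.fst '' K) := (hK.image continuous_fst).isClosed
  have hVU : ∀ β ∈ Set.Icc (0 : ℝ) 1, β ∉ Prod.fst '' K → β ∈ U := by
    intro β hβ hn s hs
    obtain ⟨ρ, hρ⟩ := hEf (f + y) (((α : ℂ) * Complex.I) • f + (β : ℂ) • z) hg
    have hρ' : ∀ s, F β s = E (f + y) * ∏ j, (s - ρ j) := by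
      intro s
      rw [hF]
      exact hρ s
    have hneg : ∀ j, (ρ j).im < 0 := by
      intro j
      by_contra hc
      push Not at hc
      have hz : F β (ρ j) = 0 := by
        rw [hρ', Finset.prod_eq_zero (Finset.mem_univ j) (sub_self _), mul_zero]
      refine hn ⟨(β, ρ j), ⟨⟨hβ, ?_⟩, hc, hz⟩, rfl⟩
      simpa using hbound β hβ _ hz
    rw [hρ', norm_mul, norm_prod]
    refine mul_le_mul_of_nonneg_left ?_ (norm_nonneg _)
    calc s.im ^ d = ∏ _j : Fin d, s.im := by simp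
      _ ≤ ∏ j, ‖s - ρ j‖ := by
        refine Finset.prod_le_prod (fun _ _ => hs.le) fun j _ => ?_
        have h1 := Complex.im_le_norm (s - ρ j)
        have h2 := hneg j
        rw [Complex.sub_im] at h1
        linarith
  have hdisj : ∀ β ∈ U, β ∉ Prod.fst '' K := by
    rintro β hβ ⟨⟨β', s⟩, ⟨_, h1, h2⟩, rfl⟩
    have h1' : 0 ≤ s.im := h1
    have h2' : F β' s = 0 := h2
    rcases h1'.eq_or_lt with h | h
    · exact hreal β' s h.symm h2'
    · have h3 : ‖E (f + y)‖ * s.im ^ d ≤ ‖F β' s‖ := hβ s h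
      rw [h2', norm_zero] at h3
      have h4 : 0 < ‖E (f + y)‖ * s.im ^ d := mul_pos (norm_pos_iff.2 hg) (pow_pos h d)
      linarith
  have h0 : (0 : ℝ) ∉ Prod.fst '' K := by
    rintro ⟨⟨β', s⟩, ⟨_, h1, h2⟩, h3⟩
    have h1' : 0 ≤ s.im := h1
    have h3' : β' = 0 := h3
    have h2' : F 0 s = 0 := h3' ▸ h2
    have hs' : s ≠ 0 := by
      rintro rfl
      exact hreal 0 0 rfl h2'
    obtain ⟨t, ht⟩ : ∃ t : ℂ, t = s⁻¹ * ((α : ℂ) * Complex.I) := ⟨_, rfl⟩
    have hts : s * t = (α : ℂ) * Complex.I := by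
      rw [ht, ← mul_assoc, mul_inv_cancel₀ hs', one_mul]
    have e : F 0 s = s ^ d * E ((t + 1) • f + y) := by
      rw [← hEs, hF]
      simp only
      congr 1
      rw [← hts]
      ext i
      simp
      ring
    rw [e] at h2'
    have hz : E ((t + 1) • f + y) = 0 := (mul_eq_zero.1 h2').resolve_left (pow_ne_zero _ hs')
    have him : (t + 1).im = 0 := hH 0 1 0 (t + 1) (by simpa using hz)
    have e2 : t + 1 = ((t + 1).re : ℂ) := by
      apply Complex.ext <;> simp at him ⊢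
      exact him
    have hle := hy (t + 1).re (by rw [← e2]; exact hz)
    have h5 := congrArg Complex.im hts
    simp at him hle h5
    rw [him] at h5
    nlinarith
  have h1U : (1 : ℝ) ∈ U := by
    by_contra hc
    have h1V : (1 : ℝ) ∈ Prod.fst '' K := by
      by_contra hn
      exact hc (hVU 1 ⟨zero_le_one, le_rfl⟩ hn)
    obtain ⟨β, _, hβU, hβV⟩ := isPreconnected_closed_iff.1 (isPreconnected_Icc (a := (0 : ℝ))
      (b := 1)) U (Prod.fst '' K) hU hV
      (fun β hβ => by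
        by_cases h : β ∈ Prod.fst '' K
        · exact Or.inr h
        · exact Or.inl (hVU β hβ h))
      ⟨0, ⟨le_rfl, zero_le_one⟩, hVU 0 ⟨le_rfl, zero_le_one⟩ h0⟩
      ⟨1, ⟨zero_le_one, le_rfl⟩, h1V⟩
    exact hdisj β hβU hβV
  have := h1U s hs
  rw [hF] at this
  simpa using this

theorem garding_pos {l d : ℕ} {q : MvPolynomial (Fin l) ℝ} (hq : q.IsHomogeneous d)
    {f : Fin l → ℝ} (H : Hyperbolic q f) {y : Fin l → ℝ} (hy : y ∈ cone q f) (z : Fin l → ℝ)
    {b : ℝ} (hb : 0 < b) :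
    MvPolynomial.aeval (fun i => (z i : ℂ) + Complex.I * b * ((f i : ℂ) + (y i : ℂ))) q ≠ 0 := by
  obtain ⟨E, hE⟩ : ∃ E : (Fin l → ℂ) → ℂ, E = fun v => MvPolynomial.aeval v q := ⟨_, rfl⟩
  have hEc : Continuous E := by
    have : E = fun v => MvPolynomial.eval v (MvPolynomial.map (algebraMap ℝ ℂ) q) := by
      rw [hE]
      ext v
      rw [MvPolynomial.eval_map, MvPolynomial.aeval_def]
    rw [this]
    exact MvPolynomial.continuous_eval _
  have hEs : ∀ (c : ℂ) (v : Fin l → ℂ), E (c • v) = c ^ d * E v := by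
    intro c v
    rw [hE]
    exact scaleV hq c v
  have hEf : ∀ v w : Fin l → ℂ, E v ≠ 0 →
      ∃ ρ : Fin d → ℂ, ∀ s : ℂ, E (s • v + w) = E v * ∏ j, (s - ρ j) := by
    intro v w hv
    rw [hE] at hv ⊢
    exact factor hq v w hv
  have hy' : ∀ τ : ℝ, E ((τ : ℂ) • (fun i => (f i : ℂ)) + fun i => (y i : ℂ)) = 0 → τ ≤ 0 := by
    intro τ h
    have e : ((τ : ℂ) • (fun i => (f i : ℂ)) + fun i => (y i : ℂ)) =
        fun i => (((τ • f + y) i : ℝ) : ℂ) := by
      ext i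
      simp
    rw [e, hE] at h
    simp only at h
    rw [aeval_ofReal] at h
    have h1 : MvPolynomial.eval (τ • f + y) q = 0 := by exact_mod_cast h
    have h2 := hy (-τ) (by
      have e2 : (-τ) • f - y = (-1 : ℝ) • (τ • f + y) := by
        ext i
        simp
        ring
      rw [e2, scaleR hq, h1, mul_zero])
    linarith
  have hcore : ∀ α : ℝ, 0 < α →
      ‖E ((fun i => (f i : ℂ)) + fun i => (y i : ℂ))‖ * b ^ d ≤
        ‖E ((Complex.I * b) • ((fun i => (f i : ℂ)) + fun i => (y i : ℂ)) +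
          (((α : ℂ) * Complex.I) • (fun i => (f i : ℂ)) + fun i => (z i : ℂ)))‖ := by
    intro α hα
    have := gar_core E hEc hEs hEf (fun i => (f i : ℂ)) (fun i => (y i : ℂ)) (fun i => (z i : ℂ))
      (by
        intro a b c t h
        refine H.2.2 (-(a • f + b • y + c • z)) t ?_
        rw [hE] at h
        simp only at h
        rw [← h]
        congr 2
        ext i
        simp
        ring)
      hy' hα (Complex.I * b) (by simpa using hb)
    simpa using this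
  have hcont : Continuous fun α : ℝ =>
      ‖E ((Complex.I * b) • ((fun i => (f i : ℂ)) + fun i => (y i : ℂ)) +
          (((α : ℂ) * Complex.I) • (fun i => (f i : ℂ)) + fun i => (z i : ℂ)))‖ :=
    (hEc.comp (by fun_prop)).norm
  have hlim := ge_of_tendsto ((hcont.tendsto 0).mono_left (nhdsWithin_le_nhds (s := Set.Ioi 0)))
    (by
      filter_upwards [self_mem_nhdsWithin] with α hα
      exact hcore α hα)
  have hg : E ((fun i => (f i : ℂ)) + fun i => (y i : ℂ)) ≠ 0 := by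
    intro h
    have := hy' 1 (by simpa using h)
    linarith
  intro hz
  have e : ((Complex.I * b) • ((fun i => (f i : ℂ)) + fun i => (y i : ℂ)) +
      ((((0 : ℝ) : ℂ) * Complex.I) • (fun i => (f i : ℂ)) + fun i => (z i : ℂ))) =
      fun i => (z i : ℂ) + Complex.I * b * ((f i : ℂ) + (y i : ℂ)) := by
    ext i
    simp
    ring
  have hz' : E (fun i => (z i : ℂ) + Complex.I * b * ((f i : ℂ) + (y i : ℂ))) = 0 := by
    rw [hE]
    exact hz
  rw [e, hz', norm_zero] at hlim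
  have h4 := mul_pos (norm_pos_iff.2 hg) (pow_pos hb d)
  linarith

theorem garding {l d : ℕ} {q : MvPolynomial (Fin l) ℝ} (hq : q.IsHomogeneous d)
    {f : Fin l → ℝ} (H : Hyperbolic q f) {y : Fin l → ℝ} (hy : y ∈ cone q f) (z : Fin l → ℝ)
    {b : ℝ} (hb : b ≠ 0) :
    MvPolynomial.aeval (fun i => (z i : ℂ) + Complex.I * b * ((f i : ℂ) + (y i : ℂ))) q ≠ 0 := by
  rcases lt_or_gt_of_ne hb with h | h
  · intro hz
    refine garding_pos hq H hy (-z) (neg_pos.2 h) ?_
    have e : (fun i => (((-z) i : ℝ) : ℂ) + Complex.I * ((-b : ℝ) : ℂ) * ((f i : ℂ) + (y i : ℂ))) =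
        (-1 : ℂ) • fun i => (z i : ℂ) + Complex.I * b * ((f i : ℂ) + (y i : ℂ)) := by
      ext i
      simp
      ring
    rw [e, scaleV hq, hz, mul_zero]
  · exact garding_pos hq H hy z h

end Vale.Agent.P256
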