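import Vale.Agent.P256.GLimit

namespace Vale.Agent.P256
open Matrix

open Filter Topology in
theorem glim2_bound {r l : ℕ} (K : Set (Fin l → ℝ)) (hK : IsClosed K)
    (hsmul : ∀ y ∈ K, ∀ c : ℝ, 0 ≤ c → c • y ∈ K)
    (Φ : Matrix (Fin r) (Fin r) ℝ →ₗ[ℝ] (Fin l → ℝ)) (P : Matrix (Fin r) (Fin r) ℝ)
    (hP : ∀ W : Matrix (Fin r) (Fin r) ℝ, W.PosSemidef → P * W * Pᵀ = W → -Φ W ∈ K → W = 0)
    (g : Fin l → ℝ) : ∃ R : ℝ, ∀ W : Matrix (Fin r) (Fin r) ℝ, W.PosSemidef → P * W * Pᵀ = W →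
      g - Φ W ∈ K → W.trace ≤ R := by
  by_contra hcon
  push Not at hcon
  choose W h1 h2 h3 h4 using fun j : ℕ => hcon ((j : ℝ) + 1)
  have hpos : ∀ j, 0 < (W j).trace := fun j => lt_trans (by positivity) (h4 j)
  obtain ⟨c, hc⟩ : ∃ c : ℕ → ℝ, ∀ j, c j = ((W j).trace)⁻¹ := ⟨_, fun _ => rfl⟩
  have c0 : ∀ j, 0 ≤ c j := fun j => by rw [hc]; exact (inv_pos.2 (hpos j)).le
  have p1 : ∀ j, (c j • W j).PosSemidef := fun j => (h1 j).smul (c0 j)
  have p2 : ∀ j, (c j • W j).trace = 1 := fun j => by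
    rw [trace_smul, smul_eq_mul, hc, inv_mul_cancel₀ (hpos j).ne']
  have p3 : ∀ j, P * (c j • W j) * Pᵀ = c j • W j := fun j => by
    rw [Matrix.mul_smul, Matrix.smul_mul, h2]
  have p4 : ∀ j, c j • g - Φ (c j • W j) ∈ K := fun j => by
    rw [map_smul, ← smul_sub]
    exact hsmul _ (h3 j) _ (c0 j)
  have hb : ∀ j, c j • W j ∈ (Set.pi Set.univ fun _ => Set.pi Set.univ fun _ => Set.Icc (-1) 1 :
      Set (Fin r → Fin r → ℝ)) := fun j a _ b _ =>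
    abs_le.1 ((GLimitA.entry (p1 j) a b).trans (p2 j).le)
  obtain ⟨V, -, φ, hφ, hV⟩ := (isCompact_univ_pi fun _ => isCompact_univ_pi fun _ =>
    isCompact_Icc).tendsto_subseq hb
  have hc0 : Tendsto c atTop (𝓝 0) := by
    refine squeeze_zero c0 (fun j => ?_) tendsto_one_div_add_atTop_nhds_zero_nat
    rw [hc, one_div]
    exact inv_anti₀ (by positivity) (h4 j).le
  have hu : Tendsto (fun j : ℕ => c (φ j)) atTop (𝓝 0) := hc0.comp hφ.tendsto_atTop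
  have hV' : Tendsto (fun j : ℕ => c (φ j) • W (φ j)) atTop
      (𝓝 (Matrix.of V : Matrix (Fin r) (Fin r) ℝ)) := hV
  have hp : Tendsto (fun j : ℕ => (c (φ j), c (φ j) • W (φ j))) atTop
      (𝓝 ((0 : ℝ), (Matrix.of V : Matrix (Fin r) (Fin r) ℝ))) := hu.prodMk_nhds hV'
  have hΦ : Continuous Φ := Φ.continuous_of_finiteDimensional
  have c2 : Continuous fun p : ℝ × Matrix (Fin r) (Fin r) ℝ => p.1 • g - Φ p.2 := by fun_prop
  have a1 := GLimitA.closed.mem_of_tendsto hV' (Eventually.of_forall fun j => p1 (φ j))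
  have a2 := hK.mem_of_tendsto ((c2.tendsto _).comp hp) (Eventually.of_forall fun j => p4 (φ j))
  have k3 : IsClosed {M : Matrix (Fin r) (Fin r) ℝ | P * M * Pᵀ = M} :=
    isClosed_eq (by fun_prop) continuous_id
  have k4 : IsClosed {M : Matrix (Fin r) (Fin r) ℝ | M.trace = 1} :=
    isClosed_eq (by fun_prop) continuous_const
  have a3 := k3.mem_of_tendsto hV' (Eventually.of_forall fun j => p3 (φ j))
  have a4 := k4.mem_of_tendsto hV' (Eventually.of_forall fun j => p2 (φ j))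
  simp only [zero_smul, zero_sub] at a2
  have h0 := hP _ a1 a3 a2
  rw [h0] at a4
  simp at a4

open Filter Topology in
theorem glim2 {n r l : ℕ} (K : Set (Fin l → ℝ)) (hK : IsClosed K)
    (hadd : ∀ y ∈ K, ∀ z ∈ K, y + z ∈ K) (hsmul : ∀ y ∈ K, ∀ c : ℝ, 0 ≤ c → c • y ∈ K)
    (f : Fin l → ℝ) (hf : f ∈ K) (Φ : Matrix (Fin r) (Fin r) ℝ →ₗ[ℝ] (Fin l → ℝ))
    (P : Matrix (Fin r) (Fin r) ℝ)
    (hP : ∀ W : Matrix (Fin r) (Fin r) ℝ, W.PosSemidef → P * W * Pᵀ = W → -Φ W ∈ K → W = 0)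
    (X : Matrix (Fin n) (Fin n) ℝ) (z : Fin l → ℝ) (Y : Matrix (Fin r) (Fin n) ℝ)
    (h : ∀ u : ℝ, 0 < u → ∃ W : Matrix (Fin r) (Fin r) ℝ, P * W * Pᵀ = W ∧
      (fromBlocks (X + u • 1) Yᵀ Y W).PosSemidef ∧ z + u • f - Φ W ∈ K) :
    ∃ W : Matrix (Fin r) (Fin r) ℝ, (fromBlocks X Yᵀ Y W).PosSemidef ∧ z - Φ W ∈ K := by
  choose W h0 h1 h2 using fun j : ℕ => h (1 / ((j : ℝ) + 1)) (by positivity)
  obtain ⟨R, hR⟩ := glim2_bound K hK hsmul Φ P hP (z + f)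
  have hb : ∀ j, W j ∈ (Set.pi Set.univ fun _ => Set.pi Set.univ fun _ => Set.Icc (-R) R :
      Set (Fin r → Fin r → ℝ)) := fun j a _ b _ => by
    have p1 : (W j).PosSemidef := (h1 j).submatrix Sum.inr
    have p4 : 1 / ((j : ℝ) + 1) ≤ 1 := by
      rw [div_le_one (by positivity)]
      linarith [(Nat.cast_nonneg j : (0 : ℝ) ≤ j)]
    have p5 := hadd _ (h2 j) _ (hsmul f hf _ (sub_nonneg.2 p4))
    have e : z + (1 / ((j : ℝ) + 1)) • f - Φ (W j) + (1 - 1 / ((j : ℝ) + 1)) • f =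
        z + f - Φ (W j) := by
      rw [sub_smul, one_smul]
      abel
    rw [e] at p5
    exact abs_le.1 ((GLimitA.entry p1 a b).trans (hR _ p1 (h0 j) p5))
  obtain ⟨V, -, φ, hφ, hV⟩ := (isCompact_univ_pi fun _ => isCompact_univ_pi fun _ =>
    isCompact_Icc).tendsto_subseq hb
  have hu : Tendsto (fun j : ℕ => 1 / ((φ j : ℝ) + 1)) atTop (𝓝 0) :=
    tendsto_one_div_add_atTop_nhds_zero_nat.comp hφ.tendsto_atTop
  have hp : Tendsto (fun j : ℕ => (1 / ((φ j : ℝ) + 1), W (φ j))) atTop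
      (𝓝 ((0 : ℝ), (Matrix.of V : Matrix (Fin r) (Fin r) ℝ))) := hu.prodMk_nhds hV
  have hΦ : Continuous Φ := Φ.continuous_of_finiteDimensional
  have c1 : Continuous fun p : ℝ × Matrix (Fin r) (Fin r) ℝ =>
      fromBlocks (X + p.1 • (1 : Matrix (Fin n) (Fin n) ℝ)) Yᵀ Y p.2 :=
    Continuous.matrix_fromBlocks (by fun_prop) continuous_const continuous_const continuous_snd
  have c2 : Continuous fun p : ℝ × Matrix (Fin r) (Fin r) ℝ => z + p.1 • f - Φ p.2 := by fun_prop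
  have a1 := GLimitA.closed.mem_of_tendsto ((c1.tendsto _).comp hp)
    (Eventually.of_forall fun j => h1 (φ j))
  have a2 := hK.mem_of_tendsto ((c2.tendsto _).comp hp) (Eventually.of_forall fun j => h2 (φ j))
  simp only [zero_smul, add_zero] at a1 a2
  exact ⟨_, a1, a2⟩

end Vale.Agent.P256
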