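import Vale.Agent.P256.Defs

namespace Vale.Agent.P256
open Matrix

/-- The linear pencil with coefficients `A i` as a matrix of polynomials. -/
noncomputable def lin {k a b : ℕ} (A : Fin k → Matrix (Fin a) (Fin b) ℝ) :
    Matrix (Fin a) (Fin b) (MvPolynomial (Fin k) ℝ) :=
  Matrix.of fun p q => ∑ i, MvPolynomial.C (A i p q) * MvPolynomial.X i

theorem det_homog {k n d : ℕ} (M : Matrix (Fin n) (Fin n) (MvPolynomial (Fin k) ℝ))
    (h : ∀ i j, (M i j).IsHomogeneous d) : M.det.IsHomogeneous (n * d) := by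
  rw [Matrix.det_apply']
  refine MvPolynomial.IsHomogeneous.sum _ _ _ fun σ _ => ?_
  have h1 : (∏ i, M (σ i) i).IsHomogeneous (∑ _i : Fin n, d) :=
    MvPolynomial.IsHomogeneous.prod _ _ _ fun i _ => h _ _
  have h2 : (∑ _i : Fin n, d) = n * d := by simp
  rw [h2] at h1
  have h3 : (((Equiv.Perm.sign σ : ℤ) : MvPolynomial (Fin k) ℝ)).IsHomogeneous 0 := by
    have := MvPolynomial.isHomogeneous_C (Fin k) (((Equiv.Perm.sign σ : ℤ) : ℝ))
    simpa using this
  simpa using h3.mul h1

theorem lin_homog {k a b : ℕ} (A : Fin k → Matrix (Fin a) (Fin b) ℝ) (p q) :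
    (lin A p q).IsHomogeneous 1 := by
  simp only [lin, Matrix.of_apply]
  refine MvPolynomial.IsHomogeneous.sum _ _ _ fun i _ => ?_
  exact (MvPolynomial.isHomogeneous_X ℝ i).C_mul _

theorem poly_homog {k n r m : ℕ} (A : Fin k → Matrix (Fin (n + 1)) (Fin (n + 1)) ℝ)
    (C : Fin k → Matrix (Fin m) (Fin m) ℝ) (B : Fin k → Matrix (Fin r) (Fin (n + 1)) ℝ)
    (Φ : Matrix (Fin r) (Fin r) ℝ →ₗ[ℝ] Matrix (Fin m) (Fin m) ℝ) :
    (MM Φ (lin A) (lin C) (lin B)).det.IsHomogeneous (m * (n + 2)) := by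
  apply det_homog
  intro i j
  have hadj : ∀ p q, ((lin A).adjugate p q).IsHomogeneous n := by
    intro p q
    rw [Matrix.adjugate_fin_succ_eq_det_submatrix]
    have h1 : ((lin A).submatrix q.succAbove p.succAbove).det.IsHomogeneous (n * 1) :=
      det_homog _ fun a b => lin_homog A _ _
    have h3 : ((-1 : MvPolynomial (Fin k) ℝ) ^ (q + p : ℕ)).IsHomogeneous 0 := by
      have := MvPolynomial.isHomogeneous_C (Fin k) ((-1 : ℝ) ^ (q + p : ℕ))
      simpa using this
    simpa using h3.mul h1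
  have hd : (lin A).det.IsHomogeneous ((n + 1) * 1) := det_homog _ fun a b => lin_homog A _ _
  simp only [MM, Matrix.sub_apply, Matrix.smul_apply, smul_eq_mul, ext, Matrix.of_apply]
  refine MvPolynomial.IsHomogeneous.sub ?_ ?_
  · have := hd.mul (lin_homog C i j)
    simpa using this
  · refine MvPolynomial.IsHomogeneous.sum _ _ _ fun a _ => ?_
    refine MvPolynomial.IsHomogeneous.sum _ _ _ fun b _ => ?_
    refine MvPolynomial.IsHomogeneous.C_mul ?_ _
    simp only [Matrix.mul_apply, Matrix.transpose_apply]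
    refine MvPolynomial.IsHomogeneous.sum _ _ _ fun q _ => ?_
    have h1 : (∑ p, lin B a p * (lin A).adjugate p q).IsHomogeneous (1 + n) :=
      MvPolynomial.IsHomogeneous.sum _ _ _ fun p _ => (lin_homog B a p).mul (hadj p q)
    have := h1.mul (lin_homog B b q)
    rwa [show 1 + n + 1 = n + 2 by ring] at this

theorem map_MM {n r m : ℕ}
    (Φ : Matrix (Fin r) (Fin r) ℝ →ₗ[ℝ] Matrix (Fin m) (Fin m) ℝ) {R S : Type} [CommRing R]
    [Algebra ℝ R] [CommRing S] [Algebra ℝ S] (f : R →ₐ[ℝ] S) (X : Matrix (Fin n) (Fin n) R)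
    (Z : Matrix (Fin m) (Fin m) R) (Y : Matrix (Fin r) (Fin n) R) :
    f (MM Φ X Z Y).det = (MM Φ (X.map f) (Z.map f) (Y.map f)).det := by
  rw [AlgHom.map_det]
  congr 1
  ext i j
  have hd : f X.det = (X.map f).det := by rw [AlgHom.map_det]; rfl
  have ha : ∀ p q, f (X.adjugate p q) = (X.map f).adjugate p q := by
    intro p q
    have := AlgHom.map_adjugate f X
    have h2 := congrFun (congrFun this p) q
    simpa using h2
  simp only [AlgHom.mapMatrix_apply, Matrix.map_apply, MM, Matrix.sub_apply, Matrix.smul_apply,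
    smul_eq_mul, ext, Matrix.of_apply, map_sub, map_mul, map_sum, AlgHom.commutes,
    Matrix.mul_apply, Matrix.transpose_apply, hd, ha]

theorem lin_map {k a b : ℕ} (A : Fin k → Matrix (Fin a) (Fin b) ℝ) {S : Type} [CommRing S]
    [Algebra ℝ S] (y : Fin k → S) :
    (lin A).map (MvPolynomial.aeval y) = Matrix.of fun p q => ∑ i, algebraMap ℝ S (A i p q) * y i := by
  ext p q
  simp [lin]

end Vale.Agent.P256
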