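import Vale.Agent.P256.GDefs
import Vale.Agent.P256.Poly

namespace Vale.Agent.P256
open Matrix

/-- The linear vector pencil with coefficients `C i` as a vector of polynomials. -/
noncomputable def linV {k l : ℕ} (C : Fin k → Fin l → ℝ) : Fin l → MvPolynomial (Fin k) ℝ :=
  fun p => ∑ i, MvPolynomial.C (C i p) * MvPolynomial.X i

theorem linV_homog {k l : ℕ} (C : Fin k → Fin l → ℝ) (p) : (linV C p).IsHomogeneous 1 := by
  simp only [linV]
  refine MvPolynomial.IsHomogeneous.sum _ _ _ fun i _ => ?_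
  exact (MvPolynomial.isHomogeneous_X ℝ i).C_mul _

theorem MV_homog {k n r l : ℕ} (A : Fin k → Matrix (Fin (n + 1)) (Fin (n + 1)) ℝ)
    (C : Fin k → Fin l → ℝ) (B : Fin k → Matrix (Fin r) (Fin (n + 1)) ℝ)
    (Φ : Matrix (Fin r) (Fin r) ℝ →ₗ[ℝ] (Fin l → ℝ)) (i : Fin l) :
    (MV Φ (lin A) (linV C) (lin B) i).IsHomogeneous (n + 2) := by
  have hadj : ∀ p q, ((lin A).adjugate p q).IsHomogeneous n := by
    intro p q
    rw [Matrix.adjugate_fin_succ_eq_det_submatrix]
    have h1 : ((lin A).submatrix q.succAbove p.succAbove).det.IsHomogeneous (n * 1) :=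
      det_homog _ fun a b => lin_homog A _ _
    have h3 : ((-1 : MvPolynomial (Fin k) ℝ) ^ (q + p : ℕ)).IsHomogeneous 0 := by
      have := MvPolynomial.isHomogeneous_C (Fin k) ((-1 : ℝ) ^ (q + p : ℕ))
      simpa using this
    simpa using h3.mul h1
  have hd : (lin A).det.IsHomogeneous ((n + 1) * 1) := det_homog _ fun a b => lin_homog A _ _
  simp only [MV, Pi.sub_apply, Pi.smul_apply, smul_eq_mul, extV]
  refine MvPolynomial.IsHomogeneous.sub ?_ ?_
  · have := hd.mul (linV_homog C i)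
    simpa using this
  · refine MvPolynomial.IsHomogeneous.sum _ _ _ fun a _ => ?_
    refine MvPolynomial.IsHomogeneous.sum _ _ _ fun b _ => ?_
    refine MvPolynomial.IsHomogeneous.C_mul ?_ _
    simp only [Matrix.mul_apply, Matrix.transpose_apply]
    refine MvPolynomial.IsHomogeneous.sum _ _ _ fun q _ => ?_
    have h1 : (∑ p, lin B a p * (lin A).adjugate p q).IsHomogeneous (1 + n) :=
      MvPolynomial.IsHomogeneous.sum _ _ _ fun p _ => (lin_homog B a p).mul (hadj p q)
    have := h1.mul (lin_homog B b q)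
    rwa [show 1 + n + 1 = n + 2 by ring] at this

theorem map_MV {n r l : ℕ} (q : MvPolynomial (Fin l) ℝ)
    (Φ : Matrix (Fin r) (Fin r) ℝ →ₗ[ℝ] (Fin l → ℝ)) {R S : Type} [CommRing R]
    [Algebra ℝ R] [CommRing S] [Algebra ℝ S] (f : R →ₐ[ℝ] S) (X : Matrix (Fin n) (Fin n) R)
    (z : Fin l → R) (Y : Matrix (Fin r) (Fin n) R) :
    f (MvPolynomial.aeval (MV Φ X z Y) q) =
      MvPolynomial.aeval (MV Φ (X.map f) (fun i => f (z i)) (Y.map f)) q := by
  rw [← AlgHom.comp_apply, MvPolynomial.comp_aeval]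
  congr 2
  ext i
  have hd : f X.det = (X.map f).det := by rw [AlgHom.map_det]; rfl
  have ha : ∀ p q, f (X.adjugate p q) = (X.map f).adjugate p q := by
    intro p q
    have := AlgHom.map_adjugate f X
    have h2 := congrFun (congrFun this p) q
    simpa using h2
  simp only [Matrix.map_apply, MV, Pi.sub_apply, Pi.smul_apply,
    smul_eq_mul, extV, map_sub, map_mul, map_sum, AlgHom.commutes,
    Matrix.mul_apply, Matrix.transpose_apply, hd, ha]

theorem linV_map {k l : ℕ} (C : Fin k → Fin l → ℝ) {S : Type} [CommRing S]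
    [Algebra ℝ S] (y : Fin k → S) :
    (fun p => MvPolynomial.aeval y (linV C p)) = fun p => ∑ i, algebraMap ℝ S (C i p) * y i := by
  ext p
  simp [linV]

end Vale.Agent.P256
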