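import Mathlib

namespace Vale.Agent.P256
open Matrix

theorem path_cont {ι X : Type} [Fintype ι] [TopologicalSpace X] {N : X → Matrix ι ι ℝ}
    (hN : Continuous N) {v : X → ι → ℝ} (hv : Continuous v) :
    Continuous fun s => v s ⬝ᵥ (N s *ᵥ v s) :=
  hv.dotProduct (hN.matrix_mulVec hv)

theorem path {ι : Type} [Fintype ι] [DecidableEq ι] (N : ℝ → Matrix ι ι ℝ) (hN : Continuous N)
    (hs : ∀ s, (N s).IsHermitian) (h0 : (N 0).PosDef) {b : ℝ} (hb : 0 ≤ b)
    (h : ¬ (N b).PosDef) : ∃ c ∈ Set.Icc (0 : ℝ) b, (N c).PosSemidef ∧ (N c).det = 0 := by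
  set U : Set ℝ := {s | ∀ x : ι → ℝ, 0 ≤ x ⬝ᵥ (N s *ᵥ x)} with hU
  set W : Set (ℝ × (ι → ℝ)) := (Set.Icc 0 b ×ˢ Metric.sphere 0 1) ∩
    {p | p.2 ⬝ᵥ (N p.1 *ᵥ p.2) ≤ 0} with hW
  have hUc : IsClosed U := by
    simp only [hU, Set.setOf_forall]
    exact isClosed_iInter fun x => isClosed_le continuous_const (path_cont hN continuous_const)
  have hWc : IsCompact W := (isCompact_Icc.prod (isCompact_sphere _ _)).inter_right
    (isClosed_le (path_cont (hN.comp continuous_fst) continuous_snd) continuous_const)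
  have hVc : IsClosed (Prod.fst '' W) := (hWc.image continuous_fst).isClosed
  have hV : ∀ s ∈ Set.Icc (0 : ℝ) b, ¬ (N s).PosDef → s ∈ Prod.fst '' W := by
    intro s hs' hn
    rw [posDef_iff_dotProduct_mulVec] at hn
    push Not at hn
    obtain ⟨x, hx, hx'⟩ := hn (hs s)
    have hp : 0 < ‖x‖ := norm_pos_iff.2 hx
    refine ⟨(s, ‖x‖⁻¹ • x), ⟨⟨hs', ?_⟩, ?_⟩, rfl⟩
    · simp [norm_smul, hp.ne']
    · simp only [Set.mem_setOf_eq, mulVec_smul, dotProduct_smul, smul_dotProduct, smul_eq_mul]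
      rw [star_trivial] at hx'
      have := inv_pos.2 hp
      exact mul_nonpos_of_nonneg_of_nonpos this.le (mul_nonpos_of_nonneg_of_nonpos this.le hx')
  have hPU : ∀ s, (N s).PosDef → s ∈ U := fun s hp x => by
    simpa using hp.posSemidef.dotProduct_mulVec_nonneg x
  obtain ⟨c, hc, hcU, ⟨c', v⟩, ⟨⟨_, hv⟩, hv'⟩, rfl⟩ :=
    isPreconnected_closed_iff.1 (isPreconnected_Icc (a := (0 : ℝ)) (b := b)) U _ hUc hVc
      (fun s hs' => by
        by_cases hp : (N s).PosDef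
        · exact Or.inl (hPU s hp)
        · exact Or.inr (hV s hs' hp))
      ⟨0, ⟨le_rfl, hb⟩, hPU 0 h0⟩ ⟨b, ⟨hb, le_rfl⟩, hV b ⟨hb, le_rfl⟩ h⟩
  have hpsd : (N c').PosSemidef :=
    PosSemidef.of_dotProduct_mulVec_nonneg (hs c') fun x => by simpa using hcU x
  refine ⟨c', hc, hpsd, ?_⟩
  by_contra hd
  have hpd := hpsd.posDef_iff_det_ne_zero.2 hd
  have hv0 : v ≠ 0 := by
    rintro rfl
    simp at hv
  have := hpd.dotProduct_mulVec_pos hv0
  rw [star_trivial] at this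
  exact absurd hv' (not_le.2 this)

theorem adj_psd {ι : Type} [Fintype ι] [DecidableEq ι] (N : Matrix ι ι ℝ) (h : N.PosSemidef) :
    N.adjugate.PosSemidef := by
  refine PosSemidef.of_dotProduct_mulVec_nonneg h.1.adjugate fun x => ?_
  rw [star_trivial]
  have hc : Continuous fun d : ℝ => x ⬝ᵥ ((N + d • (1 : Matrix ι ι ℝ)).adjugate *ᵥ x) :=
    path_cont (Continuous.matrix_adjugate (by fun_prop)) continuous_const
  have ht := (hc.tendsto 0).mono_left (nhdsWithin_le_nhds (s := Set.Ioi 0))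
  simp only [zero_smul, add_zero] at ht
  refine ge_of_tendsto ht ?_
  filter_upwards [self_mem_nhdsWithin] with d hd
  have hp : (N + d • (1 : Matrix ι ι ℝ)).PosDef :=
    PosDef.posSemidef_add h (PosDef.one.smul hd)
  have he : (N + d • (1 : Matrix ι ι ℝ)).adjugate =
      (N + d • (1 : Matrix ι ι ℝ)).det • (N + d • (1 : Matrix ι ι ℝ))⁻¹ := by
    rw [inv_def, smul_smul, Ring.mul_inverse_cancel _ hp.det_pos.ne'.isUnit, one_smul]
  rw [he, smul_mulVec, dotProduct_smul, smul_eq_mul]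
  refine mul_nonneg hp.det_pos.le ?_
  simpa using hp.inv.posSemidef.dotProduct_mulVec_nonneg x

end Vale.Agent.P256
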