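import Vale.Agent.P256.Shadow

namespace Vale.Agent.P256
open Matrix

theorem gshadow {k n r l : ℕ} (K : Set (Fin l → ℝ)) (hK : IsShadow K)
    (A : Fin k → Matrix (Fin n) (Fin n) ℝ) (C : Fin k → Fin l → ℝ)
    (B : Fin k → Matrix (Fin r) (Fin n) ℝ) (hA : ∀ i, (A i).IsSymm)
    (Φ : Matrix (Fin r) (Fin r) ℝ →ₗ[ℝ] (Fin l → ℝ)) :
    IsShadow {x : Fin k → ℝ | ∃ W : Matrix (Fin r) (Fin r) ℝ,
      (fromBlocks (∑ i, x i • A i) (∑ i, x i • B i)ᵀ (∑ i, x i • B i) W).PosSemidef ∧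
      ∑ i, x i • C i - Φ W ∈ K} := by
  obtain ⟨ι, κ, _, _, A₀, A', B', h0, h1, h2, rfl⟩ := hK
  let L : (Fin l → ℝ) →ₗ[ℝ] Matrix ι ι ℝ := Fintype.linearCombination ℝ A'
  have hL : ∀ y, L y = ∑ a, y a • A' a := fun y => Fintype.linearCombination_apply _ _ _
  have hLs : ∀ y, (L y).IsSymm := by
    intro y
    rw [hL, Matrix.IsSymm, transpose_sum]
    exact Finset.sum_congr rfl fun a _ => by rw [transpose_smul, (h1 a).eq]
  refine ⟨(Fin n ⊕ Fin r) ⊕ ι, (Fin r × Fin r) ⊕ κ, inferInstance, inferInstance,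
    fromBlocks 0 0 0 A₀,
    fun i => fromBlocks (fromBlocks (A i) (B i)ᵀ (B i) 0) 0 0 (L (C i)),
    Sum.elim (fun j => fromBlocks (fromBlocks 0 0 0 (symE j)) 0 0 (-L (Φ (symE j))))
      (fun j => fromBlocks 0 0 0 (B' j)),
    IsSymm.fromBlocks isSymm_zero transpose_zero h0,
    fun i => IsSymm.fromBlocks (IsSymm.fromBlocks (hA i) (transpose_transpose _) isSymm_zero)
      transpose_zero (hLs _), ?_, ?_⟩
  · rintro (j | j)
    · exact IsSymm.fromBlocks (IsSymm.fromBlocks isSymm_zero transpose_zero (symE_symm j))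
        transpose_zero (hLs _).neg
    · exact IsSymm.fromBlocks isSymm_zero transpose_zero (h2 j)
  have key : ∀ (x : Fin k → ℝ) (u : (Fin r × Fin r) ⊕ κ → ℝ),
      (fromBlocks 0 0 0 A₀ +
        ∑ i, x i • fromBlocks (fromBlocks (A i) (B i)ᵀ (B i) 0) 0 0 (L (C i)) +
        ∑ j, u j • Sum.elim
          (fun j => fromBlocks (fromBlocks 0 0 0 (symE j)) 0 0 (-L (Φ (symE j))))
          (fun j => fromBlocks 0 0 0 (B' j)) j :
          Matrix ((Fin n ⊕ Fin r) ⊕ ι) ((Fin n ⊕ Fin r) ⊕ ι) ℝ) =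
      fromBlocks (fromBlocks (∑ i, x i • A i) (∑ i, x i • B i)ᵀ (∑ i, x i • B i)
        (∑ j, u (Sum.inl j) • symE j)) 0 0
        (A₀ + L (∑ i, x i • C i - Φ (∑ j, u (Sum.inl j) • symE j)) +
          ∑ j, u (Sum.inr j) • B' j) := by
    intro x u
    rw [Fintype.sum_sum_type]
    simp only [Sum.elim_inl, Sum.elim_inr]
    rw [shadow_sum, shadow_sum, shadow_sum, shadow_sum, shadow_sum, fromBlocks_add,
      fromBlocks_add, fromBlocks_add]
    simp only [smul_zero, Finset.sum_const_zero, add_zero, zero_add, map_sum, map_smul, smul_neg,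
      Finset.sum_neg_distrib, transpose_sum, transpose_smul, sub_eq_add_neg, map_add, map_neg,
      fromBlocks_add, add_assoc]
  ext x
  simp only [Set.mem_setOf_eq]
  constructor
  · rintro ⟨W, h3, u, hu⟩
    have hW : W.IsSymm := by
      have h4 : W.PosSemidef := h3.submatrix Sum.inr
      have h5 := h4.1
      rwa [IsHermitian, conjTranspose_eq_transpose_of_trivial] at h5
    refine ⟨Sum.elim (fun j => W j.1 j.2 / 2) u, ?_⟩
    rw [key, shadow_diag]
    simp only [Sum.elim_inl, Sum.elim_inr]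
    rw [symE_sum W hW, hL]
    exact ⟨h3, hu⟩
  · rintro ⟨u, hu⟩
    rw [key, shadow_diag, hL] at hu
    exact ⟨_, hu.1, _, hu.2⟩

end Vale.Agent.P256
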