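import Vale.Agent.P256.Main
import Vale.Agent.P256.GPoly
import Vale.Agent.P256.GCx
import Vale.Agent.P256.GPre
import Vale.Agent.P256.GLimit
import Vale.Agent.P256.GSchur
import Vale.Agent.P256.GShadow

namespace Vale.Agent.P256
open Matrix

theorem eval_gpoly {k n r l : ℕ} (q : MvPolynomial (Fin l) ℝ)
    (A : Fin k → Matrix (Fin n) (Fin n) ℝ)
    (C : Fin k → Fin l → ℝ) (B : Fin k → Matrix (Fin r) (Fin n) ℝ)
    (Φ : Matrix (Fin r) (Fin r) ℝ →ₗ[ℝ] (Fin l → ℝ)) (x : Fin k → ℝ) :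
    MvPolynomial.eval x (MvPolynomial.aeval (MV Φ (lin A) (linV C) (lin B)) q) =
      MvPolynomial.eval ((∑ i, x i • A i).det • (∑ i, x i • C i) -
        Φ ((∑ i, x i • B i) * (∑ i, x i • A i).adjugate * (∑ i, x i • B i)ᵀ)) q := by
  have h : ∀ {a b : ℕ} (D : Fin k → Matrix (Fin a) (Fin b) ℝ),
      (lin D).map (MvPolynomial.aeval x) = ∑ i, x i • D i := by
    intro a b D
    rw [lin_map]
    ext p q
    simp [Matrix.sum_apply, mul_comm]
  have h' : (fun p => MvPolynomial.aeval x (linV C p)) = ∑ i, x i • C i := by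
    rw [linV_map]
    ext p
    simp [Finset.sum_apply, mul_comm]
  have := map_MV q Φ (MvPolynomial.aeval x) (lin A) (linV C) (lin B)
  rw [h, h, h', MvPolynomial.aeval_eq_eval, MvPolynomial.aeval_eq_eval] at this
  refine this.trans ?_
  rw [MV, extV_real]

theorem gscale {n r l : ℕ} (Φ : Matrix (Fin r) (Fin r) ℝ →ₗ[ℝ] (Fin l → ℝ)) (t : ℝ)
    (X : Matrix (Fin (n + 1)) (Fin (n + 1)) ℝ) (z : Fin l → ℝ)
    (Y : Matrix (Fin r) (Fin (n + 1)) ℝ) :
    (t • X).det • (t • z) - Φ ((t • Y) * (t • X).adjugate * (t • Y)ᵀ) =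
      (t ^ (n + 2)) • (X.det • z - Φ (Y * X.adjugate * Yᵀ)) := by
  rw [det_smul, adjugate_smul, transpose_smul]
  simp only [Fintype.card_fin, Nat.add_sub_cancel, Matrix.smul_mul, Matrix.mul_smul, map_smul,
    smul_smul, smul_sub]
  congr 2 <;> ring

theorem gmain {k n r l : ℕ} (q : MvPolynomial (Fin l) ℝ) (f : Fin l → ℝ) (H : Hyperbolic q f)
    (hd : 0 < q.totalDegree) (hS : IsShadow (cone q f))
    (A : Fin k → Matrix (Fin (n + 1)) (Fin (n + 1)) ℝ) (C : Fin k → Fin l → ℝ)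
    (B : Fin k → Matrix (Fin r) (Fin (n + 1)) ℝ)
    (hA : ∀ i, (A i).IsSymm) (e : Fin k → ℝ)
    (heA : ∑ i, e i • A i = 1) (heC : ∑ i, e i • C i = f) (heB : ∑ i, e i • B i = 0)
    (Φ : Matrix (Fin r) (Fin r) ℝ →ₗ[ℝ] (Fin l → ℝ))
    (hpos : ∀ W : Matrix (Fin r) (Fin r) ℝ, W.PosSemidef → Φ W ∈ cone q f)
    (lam : (Fin l → ℝ) →ₗ[ℝ] ℝ) (hlam : ∀ y ∈ cone q f, 0 ≤ lam y)
    (hc : ∀ W : Matrix (Fin r) (Fin r) ℝ, W.PosSemidef → W.trace ≤ lam (Φ W)) :
    ∃ p : MvPolynomial (Fin k) ℝ,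
      (∀ x : Fin k → ℝ, MvPolynomial.eval x p =
        MvPolynomial.eval ((∑ i, x i • A i).det • (∑ i, x i • C i) -
          Φ ((∑ i, x i • B i) * (∑ i, x i • A i).adjugate * (∑ i, x i • B i)ᵀ)) q) ∧
      Hyperbolic p e ∧ IsShadow (cone p e) := by
  obtain ⟨d, hq⟩ := H.1
  have hd' : 0 < d := lt_of_lt_of_le hd hq.totalDegree_le
  refine ⟨MvPolynomial.aeval (MV Φ (lin A) (linV C) (lin B)) q, eval_gpoly q A C B Φ,
    ⟨⟨_, hq.aeval _ (MV_homog A C B Φ)⟩, ?_, ?_⟩, ?_⟩
  · rw [eval_gpoly, heA, heC, heB]; simpa using H.2.1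
  · intro x t h0
    by_contra ht
    apply gcx hq H Φ hpos _ (∑ i, x i • C i) (∑ i, x i • B i) (sum_symm A hA x) t ht
    have h : ∀ {a b : ℕ} (D : Fin k → Matrix (Fin a) (Fin b) ℝ),
        (lin D).map (MvPolynomial.aeval (fun i => t * (e i : ℂ) - (x i : ℂ))) =
          t • (∑ i, e i • D i).map (fun a => (a : ℂ)) -
            (∑ i, x i • D i).map (fun a => (a : ℂ)) := by
      intro a b D
      rw [lin_map]
      ext p q
      simp only [Matrix.of_apply, Complex.coe_algebraMap, Matrix.sub_apply, Matrix.smul_apply,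
        Matrix.map_apply, Matrix.sum_apply, smul_eq_mul, Complex.ofReal_sum, Complex.ofReal_mul,
        Finset.mul_sum, ← Finset.sum_sub_distrib]
      exact Finset.sum_congr rfl fun i _ => by ring
    have h' : (fun p => MvPolynomial.aeval (fun i => t * (e i : ℂ) - (x i : ℂ)) (linV C p)) =
        fun p => t * (f p : ℂ) - ((∑ i, x i • C i) p : ℝ) := by
      rw [linV_map, ← heC]
      ext p
      simp only [Complex.coe_algebraMap, Finset.sum_apply, Pi.smul_apply, smul_eq_mul,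
        Complex.ofReal_sum, Complex.ofReal_mul, Finset.mul_sum, ← Finset.sum_sub_distrib]
      exact Finset.sum_congr rfl fun i _ => by ring
    rw [map_MV, h, h, h', heA, heB] at h0
    have o1 : ∀ {a : ℕ}, (1 : Matrix (Fin a) (Fin a) ℝ).map (fun a => (a : ℂ)) = 1 := by
      intro a
      exact Matrix.map_one _ (by simp) (by simp)
    have o2 : (0 : Matrix (Fin r) (Fin (n + 1)) ℝ).map (fun a => (a : ℂ)) = 0 := by
      ext p q; simp
    rw [o1, o2, smul_zero, zero_sub] at h0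
    exact h0
  · have key : ∀ (x : Fin k → ℝ) (ε : ℝ), 0 < ε →
        (MvPolynomial.eval ((-ε⁻¹) • e - x)
          (MvPolynomial.aeval (MV Φ (lin A) (linV C) (lin B)) q) = 0 ↔
          MvPolynomial.eval ((1 + ε • ∑ i, x i • A i).det • (f + ε • ∑ i, x i • C i) -
            Φ ((ε • ∑ i, x i • B i) * (1 + ε • ∑ i, x i • A i).adjugate *
              (ε • ∑ i, x i • B i)ᵀ)) q = 0) := by
      intro x ε hε
      have h : ∀ {V : Type} [AddCommGroup V] [Module ℝ V] (D : Fin k → V),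
          ∑ i, ((-ε⁻¹) • e - x) i • D i = (-ε⁻¹) • (∑ i, e i • D i + ε • ∑ i, x i • D i) := by
        intro V _ _ D
        rw [smul_add, smul_smul, Finset.smul_sum, Finset.smul_sum, ← Finset.sum_add_distrib]
        refine Finset.sum_congr rfl fun i _ => ?_
        rw [smul_smul, smul_smul, ← add_smul]
        congr 1
        simp only [Pi.sub_apply, Pi.smul_apply, smul_eq_mul]
        field_simp
        ring
      rw [eval_gpoly, h, h, h, heA, heC, heB, gscale, scaleR hq, zero_add, mul_eq_zero]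
      have : ((-ε⁻¹) ^ (n + 2)) ^ d ≠ 0 :=
        pow_ne_zero _ (pow_ne_zero _ (neg_ne_zero.mpr (inv_ne_zero hε.ne')))
      simp only [this, false_or]
    have hK : cone (MvPolynomial.aeval (MV Φ (lin A) (linV C) (lin B)) q) e =
        {x : Fin k → ℝ | ∃ W : Matrix (Fin r) (Fin r) ℝ,
          (fromBlocks (∑ i, x i • A i) (∑ i, x i • B i)ᵀ (∑ i, x i • B i) W).PosSemidef ∧
          ∑ i, x i • C i - Φ W ∈ cone q f} := by
      ext x
      constructor
      · intro hx
        refine glimit _ (cone_closed hq H) (fun y hy z hz => cone_add hq H hS hy hz)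
          (fun y hy c hc => cone_smul hq H hy hc) f (self_mem hq H) Φ lam hlam hc _ _ _
          fun u hu => ?_
        refine gpre hq hd' H Φ hpos _ _ _ (sum_symm A hA x) (fun ε hε h0 => ?_) u hu
        have := hx _ ((key x ε hε).mpr h0)
        have h2 : 0 < ε⁻¹ := inv_pos.mpr hε
        linarith
      · rintro ⟨W, h1, h2⟩ t ht
        by_contra hneg
        have hneg' : 0 < (-t)⁻¹ := inv_pos.mpr (by linarith)
        have e1 : t = -((-t)⁻¹)⁻¹ := by simp
        rw [e1] at ht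
        exact gschur hq H hS Φ hpos _ _ _ W h1 h2 _ hneg' ((key x _ hneg').mp ht)
    rw [hK]
    exact gshadow _ hS A C B hA Φ

end Vale.Agent.P256
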