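import Mathlib

namespace Vale.Agent.P256
open Matrix

theorem gproj {r l : ℕ} (K : Set (Fin l → ℝ)) (hK : IsClosed K)
    (hadd : ∀ y ∈ K, ∀ z ∈ K, y + z ∈ K) (hsmul : ∀ y ∈ K, ∀ c : ℝ, 0 ≤ c → c • y ∈ K)
    (Φ : Matrix (Fin r) (Fin r) ℝ →ₗ[ℝ] (Fin l → ℝ))
    (hpos : ∀ W : Matrix (Fin r) (Fin r) ℝ, W.PosSemidef → Φ W ∈ K) :
    ∃ P : Matrix (Fin r) (Fin r) ℝ, P * P = P ∧
      (∀ W : Matrix (Fin r) (Fin r) ℝ, W.IsSymm →
        Φ (P * W * Pᵀ) - Φ W ∈ K ∧ Φ W - Φ (P * W * Pᵀ) ∈ K) ∧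
      (∀ W : Matrix (Fin r) (Fin r) ℝ, W.PosSemidef → -Φ (P * W * Pᵀ) ∈ K → P * W * Pᵀ = 0) := by
  classical
  have h0 : (0 : Fin l → ℝ) ∈ K := by simpa using hpos 0 PosSemidef.zero
  have hv : ∀ v : Fin r → ℝ, Φ (vecMulVec v v) ∈ K := fun v =>
    hpos _ (by simpa using posSemidef_vecMulVec_self_star v)
  have hsum : ∀ {ι : Type} (s : Finset ι) (g : ι → Fin l → ℝ), (∀ i ∈ s, g i ∈ K) →
      ∑ i ∈ s, g i ∈ K := fun s g h =>
    Finset.sum_induction g (· ∈ K) (fun a b ha hb => hadd a ha b hb) h0 h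
  let U : Submodule ℝ (Fin r → ℝ) :=
    { carrier := {v | -Φ (vecMulVec v v) ∈ K}
      add_mem' := by
        intro v w h1 h2
        have h3 : vecMulVec (v + w) (v + w) = (2 : ℝ) • vecMulVec v v + (2 : ℝ) • vecMulVec w w -
            vecMulVec (v - w) (v - w) := by
          ext i j; simp [vecMulVec_apply]; ring
        have h4 := hadd _ (hadd _ (hsmul _ h1 2 (by norm_num)) _ (hsmul _ h2 2 (by norm_num))) _
          (hv (v - w))
        show -Φ _ ∈ K
        rw [h3, map_sub, map_add, map_smul, map_smul]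
        convert h4 using 1
        module
      zero_mem' := by
        show -Φ _ ∈ K
        simpa using h0
      smul_mem' := by
        intro c v h1
        have h3 : vecMulVec (c • v) (c • v) = (c * c) • vecMulVec v v := by
          ext i j; simp [vecMulVec_apply]; ring
        show -Φ _ ∈ K
        rw [h3, map_smul, ← smul_neg]
        exact hsmul _ h1 _ (mul_self_nonneg c) }
  have hU : ∀ v, v ∈ U ↔ -Φ (vecMulVec v v) ∈ K := fun v => Iff.rfl
  have hcross : ∀ v ∈ U, ∀ w, Φ (vecMulVec v w + vecMulVec w v) ∈ K := by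
    intro v hvU w
    have h1 : Filter.Tendsto
        (fun e : ℝ => Φ (vecMulVec v w + vecMulVec w v) + e • Φ (vecMulVec w w))
        (nhdsWithin 0 (Set.Ioi 0)) (nhds (Φ (vecMulVec v w + vecMulVec w v))) := by
      have h2 : Continuous
          (fun e : ℝ => Φ (vecMulVec v w + vecMulVec w v) + e • Φ (vecMulVec w w)) := by fun_prop
      have h3 := h2.tendsto 0
      simp only [zero_smul, add_zero] at h3
      exact h3.mono_left nhdsWithin_le_nhds
    refine hK.mem_of_tendsto h1 ?_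
    filter_upwards [self_mem_nhdsWithin] with e he
    have he : 0 < e := he
    have h2 := hsmul _ (hadd _ (hv (v + e • w)) _ ((hU v).1 hvU)) e⁻¹ (inv_pos.2 he).le
    have h3 : vecMulVec (v + e • w) (v + e • w) = vecMulVec v v +
        e • ((vecMulVec v w + vecMulVec w v) + e • vecMulVec w w) := by
      ext i j; simp [vecMulVec_apply]; ring
    rw [h3, map_add, map_smul, add_neg_cancel_comm, smul_smul, inv_mul_cancel₀ he.ne', one_smul,
      map_add, map_smul] at h2
    exact h2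
  have hcross' : ∀ v ∈ U, ∀ w, -Φ (vecMulVec v w + vecMulVec w v) ∈ K := by
    intro v hvU w
    have h1 := hcross v hvU (-w)
    have h2 : vecMulVec v (-w) + vecMulVec (-w) v = -(vecMulVec v w + vecMulVec w v) := by
      ext i j; simp [vecMulVec_apply]; ring
    rwa [h2, map_neg] at h1
  obtain ⟨g, hg⟩ := U.subtype.exists_leftInverse_of_injective U.ker_subtype
  set π := U.subtype ∘ₗ g with hπ
  have hπ1 : ∀ x, π x ∈ U := fun x => (g x).2
  have hπ2 : ∀ x ∈ U, π x = x := fun x hx => by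
    have h1 : g x = ⟨x, hx⟩ := LinearMap.congr_fun hg ⟨x, hx⟩
    show (g x : Fin r → ℝ) = x
    rw [h1]
  set Q := LinearMap.toMatrix' π with hQ
  have hQv : ∀ x, Q *ᵥ x = π x := fun x => by
    rw [← Matrix.toLin'_apply, hQ, Matrix.toLin'_toMatrix']
  have hQQ : Q * Q = Q := ext_iff_mulVec.2 fun x => by
    rw [← mulVec_mulVec, hQv, hQv, hπ2 _ (hπ1 x)]
  refine ⟨1 - Q, ?_, fun W hW => ?_, fun W hW h => ?_⟩
  · rw [sub_mul, mul_sub, mul_sub, hQQ]; simp
  · set M := W - (1 / 2 : ℝ) • (W * Qᵀ) with hM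
    have h1 : W - (1 - Q) * W * (1 - Q)ᵀ = Q * M + (Q * M)ᵀ := by
      have hW' : Wᵀ = W := hW
      rw [hM]
      simp only [transpose_sub, transpose_one, transpose_mul, transpose_smul, transpose_transpose,
        hW', sub_mul, mul_sub, Matrix.mul_smul, Matrix.smul_mul, one_mul, mul_one, mul_assoc]
      module
    have h2 : Q * M + (Q * M)ᵀ = ∑ j, (vecMulVec (fun i => Q i j) (M j) +
        vecMulVec (M j) fun i => Q i j) := by
      ext a b
      simp only [Matrix.add_apply, transpose_apply, mul_apply, Matrix.sum_apply, vecMulVec_apply,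
        Finset.sum_add_distrib]
      congr 1
      exact Finset.sum_congr rfl fun j _ => mul_comm _ _
    have h3 : ∀ j, (fun i => Q i j) ∈ U := fun j => by
      have h4 : (fun i => Q i j) = Q *ᵥ Pi.single j 1 := by
        ext i; simp
      rw [h4, hQv]; exact hπ1 _
    constructor
    · rw [← neg_sub, ← map_sub, h1, h2, map_sum, ← Finset.sum_neg_distrib]
      exact hsum _ _ fun j _ => hcross' _ (h3 j) _
    · rw [← map_sub, h1, h2, map_sum]
      exact hsum _ _ fun j _ => hcross _ (h3 j) _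
  · obtain ⟨m, b, hb⟩ := Matrix.posSemidef_iff_eq_sum_vecMulVec.1 hW
    have h1 : (1 - Q) * W * (1 - Q)ᵀ =
        ∑ j, vecMulVec ((1 - Q) *ᵥ b j) ((1 - Q) *ᵥ b j) := by
      rw [hb, Finset.mul_sum, Finset.sum_mul]
      refine Finset.sum_congr rfl fun j _ => ?_
      rw [mul_vecMulVec, vecMulVec_mul, vecMul_transpose, star_trivial]
    rw [h1] at h ⊢
    refine Finset.sum_eq_zero fun j _ => ?_
    have h2 : (1 - Q) *ᵥ b j ∈ U := by
      rw [hU]
      have h3 := hadd _ h _ (hsum (Finset.univ.erase j)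
        (fun i => Φ (vecMulVec ((1 - Q) *ᵥ b i) ((1 - Q) *ᵥ b i))) fun i _ => hv _)
      rw [map_sum, ← Finset.add_sum_erase _ _ (Finset.mem_univ j)] at h3
      convert h3 using 1
      abel
    have h3 : (1 - Q) *ᵥ b j = 0 := by
      rw [← hπ2 _ h2, ← hQv, mulVec_mulVec, mul_sub, hQQ]
      simp
    rw [h3]
    simp

end Vale.Agent.P256
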