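import Vale.Agent.P256.GMain
import Vale.Agent.P256.GProj
import Vale.Agent.P256.GLim2

namespace Vale.Agent.P256
open Matrix

theorem gschur2 {n r l d : ℕ} {q : MvPolynomial (Fin l) ℝ} (hq : q.IsHomogeneous d)
    {f : Fin l → ℝ} (H : Hyperbolic q f) (hS' : IsShadow (cone q f))
    (Φ : Matrix (Fin r) (Fin r) ℝ →ₗ[ℝ] (Fin l → ℝ))
    (hpos : ∀ W : Matrix (Fin r) (Fin r) ℝ, W.PosSemidef → Φ W ∈ cone q f)
    (P : Matrix (Fin r) (Fin r) ℝ)
    (hPP : ∀ W : Matrix (Fin r) (Fin r) ℝ, W.IsSymm → Φ (P * W * Pᵀ) - Φ W ∈ cone q f)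
    (X : Matrix (Fin n) (Fin n) ℝ) (z : Fin l → ℝ) (Y : Matrix (Fin r) (Fin n) ℝ)
    (W : Matrix (Fin r) (Fin r) ℝ) (h1 : (fromBlocks X (P * Y)ᵀ (P * Y) W).PosSemidef)
    (h2 : z - Φ W ∈ cone q f) (ε : ℝ) (hε : 0 < ε) :
    MvPolynomial.eval ((1 + ε • X).det • (f + ε • z)
      - Φ ((ε • Y) * (1 + ε • X).adjugate * (ε • Y)ᵀ)) q ≠ 0 := by
  have hX : X.PosSemidef := by
    have := h1.submatrix Sum.inl
    convert this using 1
    ext i j; simp
  have hP : (1 + ε • X).PosDef := PosDef.one.add_posSemidef (hX.smul hε.le)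
  have hD : (fromBlocks (1 : Matrix (Fin n) (Fin n) ℝ) (0 : Matrix (Fin n) (Fin r) ℝ)
      (0 : Matrix (Fin r) (Fin n) ℝ) (0 : Matrix (Fin r) (Fin r) ℝ)).PosSemidef := by
    have := posSemidef_conjTranspose_mul_self
      (fromBlocks (1 : Matrix (Fin n) (Fin n) ℝ) (0 : Matrix (Fin n) (Fin r) ℝ)
      (0 : Matrix (Fin r) (Fin n) ℝ) (0 : Matrix (Fin r) (Fin r) ℝ))
    rw [fromBlocks_conjTranspose, fromBlocks_multiply] at this
    simpa using this
  have hB : (fromBlocks (1 + ε • X) (ε • (P * Y))ᵀ (ε • (P * Y)) (ε • W)).PosSemidef := by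
    have := hD.add (h1.smul hε.le)
    convert this using 1
    rw [fromBlocks_smul, fromBlocks_add]
    simp
  let _ : Invertible (1 + ε • X) := hP.isUnit.invertible
  have hS : (ε • W - (ε • (P * Y)) * (1 + ε • X)⁻¹ * (ε • (P * Y))ᵀ).PosSemidef := by
    have := (PosDef.fromBlocks₁₁ (ε • (P * Y))ᵀ (ε • W) hP).mp (by
      simpa only [conjTranspose_eq_transpose_of_trivial, transpose_transpose] using hB)
    simpa only [conjTranspose_eq_transpose_of_trivial, transpose_transpose] using this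
  have hd : 0 < (1 + ε • X).det := hP.det_pos
  have hadj : (1 + ε • X).adjugate = (1 + ε • X).det • (1 + ε • X)⁻¹ := by
    rw [Matrix.inv_def, smul_smul, Ring.mul_inverse_cancel _ (isUnit_iff_ne_zero.mpr hd.ne'),
      one_smul]
  have hV : ((ε • Y) * (1 + ε • X)⁻¹ * (ε • Y)ᵀ).PosSemidef := by
    have := hP.inv.posSemidef.mul_mul_conjTranspose_same (ε • Y)
    simpa only [conjTranspose_eq_transpose_of_trivial] using this
  have hVs : ((ε • Y) * (1 + ε • X)⁻¹ * (ε • Y)ᵀ).IsSymm := by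
    have := hV.isHermitian
    rwa [IsHermitian, conjTranspose_eq_transpose_of_trivial] at this
  have e0 : (ε • (P * Y)) * (1 + ε • X)⁻¹ * (ε • (P * Y))ᵀ =
      P * ((ε • Y) * (1 + ε • X)⁻¹ * (ε • Y)ᵀ) * Pᵀ := by
    rw [← Matrix.mul_smul, transpose_mul]
    simp only [Matrix.mul_assoc]
  rw [e0] at hS
  have e : (1 + ε • X).det • (f + ε • z) - Φ ((ε • Y) * (1 + ε • X).adjugate * (ε • Y)ᵀ) =
      (-(1 + ε • X).det) • ((-1 : ℝ) • f - ((ε • (z - Φ W) +
        Φ (ε • W - P * ((ε • Y) * (1 + ε • X)⁻¹ * (ε • Y)ᵀ) * Pᵀ)) +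
        (Φ (P * ((ε • Y) * (1 + ε • X)⁻¹ * (ε • Y)ᵀ) * Pᵀ) -
          Φ ((ε • Y) * (1 + ε • X)⁻¹ * (ε • Y)ᵀ)))) := by
    rw [hadj, Matrix.mul_smul, Matrix.smul_mul, map_smul, map_sub, map_smul]
    module
  rw [e, scaleR hq]
  refine mul_ne_zero (pow_ne_zero _ (neg_ne_zero.mpr hd.ne')) fun h0 => ?_
  have := cone_add hq H hS' (cone_add hq H hS' (cone_smul hq H h2 hε.le) (hpos _ hS))
    (hPP _ hVs) _ h0
  linarith

theorem block_conj {n r : ℕ} (P : Matrix (Fin r) (Fin r) ℝ) (X : Matrix (Fin n) (Fin n) ℝ)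
    (Y : Matrix (Fin r) (Fin n) ℝ) (W : Matrix (Fin r) (Fin r) ℝ)
    (h : (fromBlocks X Yᵀ Y W).PosSemidef) :
    (fromBlocks X (P * Y)ᵀ (P * Y) (P * W * Pᵀ)).PosSemidef := by
  have := h.mul_mul_conjTranspose_same
    (fromBlocks (1 : Matrix (Fin n) (Fin n) ℝ) (0 : Matrix (Fin n) (Fin r) ℝ)
      (0 : Matrix (Fin r) (Fin n) ℝ) P)
  rw [fromBlocks_conjTranspose, fromBlocks_multiply, fromBlocks_multiply] at this
  simpa [transpose_mul] using this

theorem gmain2 {k n r l : ℕ} (q : MvPolynomial (Fin l) ℝ) (f : Fin l → ℝ) (H : Hyperbolic q f)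
    (hd : 0 < q.totalDegree) (hS : IsShadow (cone q f))
    (A : Fin k → Matrix (Fin (n + 1)) (Fin (n + 1)) ℝ) (C : Fin k → Fin l → ℝ)
    (B : Fin k → Matrix (Fin r) (Fin (n + 1)) ℝ)
    (hA : ∀ i, (A i).IsSymm) (e : Fin k → ℝ)
    (heA : ∑ i, e i • A i = 1) (heC : ∑ i, e i • C i = f) (heB : ∑ i, e i • B i = 0)
    (Φ : Matrix (Fin r) (Fin r) ℝ →ₗ[ℝ] (Fin l → ℝ))
    (hpos : ∀ W : Matrix (Fin r) (Fin r) ℝ, W.PosSemidef → Φ W ∈ cone q f) :
    ∃ p : MvPolynomial (Fin k) ℝ,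
      (∀ x : Fin k → ℝ, MvPolynomial.eval x p =
        MvPolynomial.eval ((∑ i, x i • A i).det • (∑ i, x i • C i) -
          Φ ((∑ i, x i • B i) * (∑ i, x i • A i).adjugate * (∑ i, x i • B i)ᵀ)) q) ∧
      Hyperbolic p e ∧ IsShadow (cone p e) := by
  obtain ⟨d, hq⟩ := H.1
  have hd' : 0 < d := lt_of_lt_of_le hd hq.totalDegree_le
  refine ⟨MvPolynomial.aeval (MV Φ (lin A) (linV C) (lin B)) q, eval_gpoly q A C B Φ,
    ⟨⟨_, hq.aeval _ (MV_homog A C B Φ)⟩, ?_, ?_⟩, ?_⟩
  · rw [eval_gpoly, heA, heC, heB]; simpa using H.2.1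
  · intro x t h0
    by_contra ht
    apply gcx hq H Φ hpos _ (∑ i, x i • C i) (∑ i, x i • B i) (sum_symm A hA x) t ht
    have h : ∀ {a b : ℕ} (D : Fin k → Matrix (Fin a) (Fin b) ℝ),
        (lin D).map (MvPolynomial.aeval (fun i => t * (e i : ℂ) - (x i : ℂ))) =
          t • (∑ i, e i • D i).map (fun a => (a : ℂ)) -
            (∑ i, x i • D i).map (fun a => (a : ℂ)) := by
      intro a b D
      rw [lin_map]
      ext p q
      simp only [Matrix.of_apply, Complex.coe_algebraMap, Matrix.sub_apply, Matrix.smul_apply,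
        Matrix.map_apply, Matrix.sum_apply, smul_eq_mul, Complex.ofReal_sum, Complex.ofReal_mul,
        Finset.mul_sum, ← Finset.sum_sub_distrib]
      exact Finset.sum_congr rfl fun i _ => by ring
    have h' : (fun p => MvPolynomial.aeval (fun i => t * (e i : ℂ) - (x i : ℂ)) (linV C p)) =
        fun p => t * (f p : ℂ) - ((∑ i, x i • C i) p : ℝ) := by
      rw [linV_map, ← heC]
      ext p
      simp only [Complex.coe_algebraMap, Finset.sum_apply, Pi.smul_apply, smul_eq_mul,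
        Complex.ofReal_sum, Complex.ofReal_mul, Finset.mul_sum, ← Finset.sum_sub_distrib]
      exact Finset.sum_congr rfl fun i _ => by ring
    rw [map_MV, h, h, h', heA, heB] at h0
    have o1 : ∀ {a : ℕ}, (1 : Matrix (Fin a) (Fin a) ℝ).map (fun a => (a : ℂ)) = 1 := by
      intro a
      exact Matrix.map_one _ (by simp) (by simp)
    have o2 : (0 : Matrix (Fin r) (Fin (n + 1)) ℝ).map (fun a => (a : ℂ)) = 0 := by
      ext p q; simp
    rw [o1, o2, smul_zero, zero_sub] at h0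
    exact h0
  · have key : ∀ (x : Fin k → ℝ) (ε : ℝ), 0 < ε →
        (MvPolynomial.eval ((-ε⁻¹) • e - x)
          (MvPolynomial.aeval (MV Φ (lin A) (linV C) (lin B)) q) = 0 ↔
          MvPolynomial.eval ((1 + ε • ∑ i, x i • A i).det • (f + ε • ∑ i, x i • C i) -
            Φ ((ε • ∑ i, x i • B i) * (1 + ε • ∑ i, x i • A i).adjugate *
              (ε • ∑ i, x i • B i)ᵀ)) q = 0) := by
      intro x ε hε
      have h : ∀ {V : Type} [AddCommGroup V] [Module ℝ V] (D : Fin k → V),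
          ∑ i, ((-ε⁻¹) • e - x) i • D i = (-ε⁻¹) • (∑ i, e i • D i + ε • ∑ i, x i • D i) := by
        intro V _ _ D
        rw [smul_add, smul_smul, Finset.smul_sum, Finset.smul_sum, ← Finset.sum_add_distrib]
        refine Finset.sum_congr rfl fun i _ => ?_
        rw [smul_smul, smul_smul, ← add_smul]
        congr 1
        simp only [Pi.sub_apply, Pi.smul_apply, smul_eq_mul]
        field_simp
        ring
      rw [eval_gpoly, h, h, h, heA, heC, heB, gscale, scaleR hq, zero_add, mul_eq_zero]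
      have : ((-ε⁻¹) ^ (n + 2)) ^ d ≠ 0 :=
        pow_ne_zero _ (pow_ne_zero _ (neg_ne_zero.mpr (inv_ne_zero hε.ne')))
      simp only [this, false_or]
    have hadd : ∀ y ∈ cone q f, ∀ z ∈ cone q f, y + z ∈ cone q f :=
      fun y hy z hz => cone_add hq H hS hy hz
    have hsm : ∀ y ∈ cone q f, ∀ c : ℝ, 0 ≤ c → c • y ∈ cone q f :=
      fun y hy c hc => cone_smul hq H hy hc
    obtain ⟨P, hP1, hP2, hP3⟩ := gproj _ (cone_closed hq H) hadd hsm Φ hpos
    have hPB : ∀ x : Fin k → ℝ, ∑ i, x i • (P * B i) = P * ∑ i, x i • B i := by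
      intro x
      rw [Matrix.mul_sum]
      exact Finset.sum_congr rfl fun i _ => by rw [Matrix.mul_smul]
    have hK : cone (MvPolynomial.aeval (MV Φ (lin A) (linV C) (lin B)) q) e =
        {x : Fin k → ℝ | ∃ W : Matrix (Fin r) (Fin r) ℝ,
          (fromBlocks (∑ i, x i • A i) (∑ i, x i • (P * B i))ᵀ (∑ i, x i • (P * B i))
            W).PosSemidef ∧ ∑ i, x i • C i - Φ W ∈ cone q f} := by
      ext x
      simp only [Set.mem_setOf_eq, hPB]
      constructor
      · intro hx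
        refine glim2 _ (cone_closed hq H) hadd hsm f (self_mem hq H) Φ P
          (fun W hW h1 h2 => ?_) _ _ _ fun u hu => ?_
        · have := hP3 W hW (by rwa [h1])
          rwa [h1] at this
        obtain ⟨W, h1, h2⟩ := gpre hq hd' H Φ hpos _ (∑ i, x i • C i) (∑ i, x i • B i)
          (sum_symm A hA x) (fun ε hε h0 => by
            have := hx _ ((key x ε hε).mpr h0)
            have h2 : 0 < ε⁻¹ := inv_pos.mpr hε
            linarith) u hu
        have hW : W.IsSymm := by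
          have h3 := (h1.submatrix Sum.inr).isHermitian
          have h4 : (fromBlocks (∑ i, x i • A i + u • 1) (∑ i, x i • B i)ᵀ (∑ i, x i • B i)
              W).submatrix Sum.inr Sum.inr = W := by
            ext i j; simp
          rwa [h4, IsHermitian, conjTranspose_eq_transpose_of_trivial] at h3
        refine ⟨P * W * Pᵀ, ?_, block_conj P _ _ _ h1, ?_⟩
        · have h5 : Pᵀ * Pᵀ = Pᵀ := by rw [← transpose_mul, hP1]
          calc P * (P * W * Pᵀ) * Pᵀ = (P * P) * W * (Pᵀ * Pᵀ) := by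
                simp only [Matrix.mul_assoc]
            _ = _ := by rw [hP1, h5]
        · have := hadd _ h2 _ (hP2 W hW).2
          convert this using 1
          abel
      · rintro ⟨W, h1, h2⟩ t ht
        by_contra hneg
        have hneg' : 0 < (-t)⁻¹ := inv_pos.mpr (by linarith)
        have e1 : t = -((-t)⁻¹)⁻¹ := by simp
        rw [e1] at ht
        exact gschur2 hq H hS Φ hpos P (fun W hW => (hP2 W hW).1) _ _ _ W h1 h2 _ hneg'
          ((key x _ hneg').mp ht)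
    rw [hK]
    exact gshadow _ hS A C (fun i => P * B i) hA Φ

end Vale.Agent.P256
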