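import Vale.Agent.P256.GCone

namespace Vale.Agent.P256

theorem cpath {l d : ℕ} {q : MvPolynomial (Fin l) ℝ} (hq : q.IsHomogeneous d)
    {f : Fin l → ℝ} (H : Hyperbolic q f) (M : ℝ → Fin l → ℝ) (hM : Continuous M) (h0 : M 0 = f)
    {b : ℝ} (hb : 0 ≤ b) (h : ∀ s ∈ Set.Icc (0 : ℝ) b, MvPolynomial.eval (M s) q ≠ 0) :
    M b ∈ cone q f := by
  by_contra hcon
  let K : Set (ℝ × ℝ) := (Set.Icc (0 : ℝ) b ×ˢ Set.Icc (0 : ℝ) 1) ∩
    {p | MvPolynomial.eval (p.2 • f + (1 - p.2) • M p.1) q = 0}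
  have hc : Continuous fun p : ℝ × ℝ => MvPolynomial.eval (p.2 • f + (1 - p.2) • M p.1) q :=
    (MvPolynomial.continuous_eval q).comp (by fun_prop)
  have hK : IsCompact K :=
    (isCompact_Icc.prod isCompact_Icc).inter_right (isClosed_eq hc continuous_const)
  have hV : IsClosed (Prod.fst '' K) := (hK.image continuous_fst).isClosed
  have hU : IsClosed (M ⁻¹' cone q f) := (cone_closed hq H).preimage hM
  have hin : ∀ s ∈ Set.Icc (0 : ℝ) b, M s ∉ cone q f → s ∈ Prod.fst '' K := by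
    intro s hs hn
    simp only [cone, Set.mem_setOf_eq, not_forall, not_le] at hn
    obtain ⟨t, ht0, ht⟩ := hn
    have h1 : 0 < 1 - t := by linarith
    refine ⟨(s, -t / (1 - t)), ⟨⟨hs, div_nonneg (by linarith) h1.le,
      (div_le_one h1).mpr (by linarith)⟩, ?_⟩, rfl⟩
    have e : (-t / (1 - t)) • f + (1 - -t / (1 - t)) • M s = (-(1 - t)⁻¹) • (t • f - M s) := by
      ext i
      simp only [Pi.add_apply, Pi.smul_apply, Pi.sub_apply, smul_eq_mul]
      field_simp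
      ring
    simp only [Set.mem_setOf_eq]
    rw [e, scaleR hq, ht0, mul_zero]
  have hcover : Set.Icc (0 : ℝ) b ⊆ (M ⁻¹' cone q f) ∪ Prod.fst '' K := by
    intro s hs
    by_cases hm : M s ∈ cone q f
    · exact Or.inl hm
    · exact Or.inr (hin s hs hm)
  obtain ⟨s, hs, hsU, ⟨s', τ⟩, ⟨⟨_, hτ0, hτ1⟩, hz⟩, rfl⟩ :=
    isPreconnected_closed_iff.mp isPreconnected_Icc _ _ hU hV hcover
      ⟨0, ⟨le_rfl, hb⟩, by simpa [h0] using self_mem hq H⟩
      ⟨b, ⟨hb, le_rfl⟩, hin b ⟨hb, le_rfl⟩ hcon⟩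
  simp only [Set.mem_setOf_eq] at hz hτ0 hτ1 hs
  have hτ : τ ≠ 1 := by
    rintro rfl
    simp only [one_smul, sub_self, zero_smul, add_zero] at hz
    exact H.2.1.ne' hz
  have h1 : 0 < 1 - τ := sub_pos.mpr (lt_of_le_of_ne hτ1 hτ)
  have e : τ • f + (1 - τ) • M s' = (-(1 - τ)) • ((-τ / (1 - τ)) • f - M s') := by
    ext i
    simp only [Pi.add_apply, Pi.smul_apply, Pi.sub_apply, smul_eq_mul]
    field_simp
    ring
  rw [e, scaleR hq] at hz
  have hz' := (mul_eq_zero.mp hz).resolve_left (pow_ne_zero _ (neg_ne_zero.mpr h1.ne'))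
  have h2 := hsU _ hz'
  have h3 : τ = 0 := by
    have := (div_nonneg_iff.mp h2).resolve_right (fun hh => absurd hh.2 (not_le.mpr h1))
    linarith [this.1]
  subst h3
  apply h s' hs
  have e2 : M s' = (-1 : ℝ) • ((-0 / (1 - 0) : ℝ) • f - M s') := by
    ext i
    simp
  rw [e2, scaleR hq, hz', mul_zero]

end Vale.Agent.P256
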