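import Mathlib

namespace Vale.Agent.P256
open Matrix

namespace LimitA

open Filter Topology

theorem closed {ι : Type} [Fintype ι] : IsClosed {M : Matrix ι ι ℝ | M.PosSemidef} := by
  have e : {M : Matrix ι ι ℝ | M.PosSemidef} =
      {M | Mᴴ = M} ∩ ⋂ v : ι → ℝ, {M | 0 ≤ star v ⬝ᵥ (M *ᵥ v)} := by
    ext M
    simp only [Set.mem_setOf_eq, Set.mem_inter_iff, Set.mem_iInter,
      posSemidef_iff_dotProduct_mulVec]
    rfl
  rw [e]
  exact (isClosed_eq (by fun_prop) continuous_id).inter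
    (isClosed_iInter fun v => isClosed_le continuous_const (by fun_prop))

theorem entry {ι : Type} [Fintype ι] [DecidableEq ι] {W : Matrix ι ι ℝ} (h : W.PosSemidef)
    (a b : ι) : |W a b| ≤ W.trace := by
  have hd : ∀ i, W i i ≤ W.trace := fun i =>
    Finset.single_le_sum (f := fun i => W i i) (fun j _ => h.diag_nonneg) (Finset.mem_univ i)
  have hs : W b a = W a b := by simpa using h.1.apply a b
  have h1 := h.dotProduct_mulVec_nonneg (Pi.single a 1 + Pi.single b 1)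
  have h2 := h.dotProduct_mulVec_nonneg (Pi.single a 1 - Pi.single b 1)
  simp only [star_trivial, mulVec_add, mulVec_sub, add_dotProduct, sub_dotProduct,
    single_dotProduct, one_mul, Pi.add_apply, Pi.sub_apply, mulVec_single_one, col_apply] at h1 h2
  have := hd a
  have := hd b
  rw [abs_le]
  constructor <;> linarith

end LimitA

open Filter Topology in
theorem limit {n r m : ℕ}
    (Φ : Matrix (Fin r) (Fin r) ℝ →ₗ[ℝ] Matrix (Fin m) (Fin m) ℝ) (c : ℝ)
    (hc : ∀ W : Matrix (Fin r) (Fin r) ℝ, W.PosSemidef → W.trace ≤ c * (Φ W).trace)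
    (hpos : ∀ W : Matrix (Fin r) (Fin r) ℝ, W.PosSemidef → (Φ W).PosSemidef)
    (X : Matrix (Fin n) (Fin n) ℝ) (Z : Matrix (Fin m) (Fin m) ℝ) (Y : Matrix (Fin r) (Fin n) ℝ)
    (h : ∀ u : ℝ, 0 < u → ∃ W : Matrix (Fin r) (Fin r) ℝ,
      (fromBlocks (X + u • 1) Yᵀ Y W).PosSemidef ∧ (Z + u • 1 - Φ W).PosSemidef) :
    ∃ W : Matrix (Fin r) (Fin r) ℝ, (fromBlocks X Yᵀ Y W).PosSemidef ∧ (Z - Φ W).PosSemidef := by
  choose W h1 h2 using fun j : ℕ => h (1 / ((j : ℝ) + 1)) (by positivity)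
  obtain ⟨R, hR⟩ : ∃ R, R = |c| * (Z.trace + m) := ⟨_, rfl⟩
  have hb : ∀ j, W j ∈ (Set.pi Set.univ fun _ => Set.pi Set.univ fun _ => Set.Icc (-R) R :
      Set (Fin r → Fin r → ℝ)) := fun j a _ b _ => by
    have p1 : (W j).PosSemidef := (h1 j).submatrix Sum.inr
    have p2 := (hpos _ p1).trace_nonneg
    have p3 := (h2 j).trace_nonneg
    rw [trace_sub, trace_add, trace_smul, trace_one, Fintype.card_fin, smul_eq_mul] at p3
    have p4 : 1 / ((j : ℝ) + 1) ≤ 1 := by
      rw [div_le_one (by positivity)]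
      linarith [(Nat.cast_nonneg j : (0 : ℝ) ≤ j)]
    have p5 := mul_le_mul_of_nonneg_right p4 (Nat.cast_nonneg m : (0 : ℝ) ≤ m)
    have p6 := mul_le_mul (le_abs_self c) (show (Φ (W j)).trace ≤ Z.trace + m by linarith) p2
      (abs_nonneg c)
    exact abs_le.1 ((LimitA.entry p1 a b).trans ((hc _ p1).trans (hR ▸ p6)))
  obtain ⟨V, -, φ, hφ, hV⟩ := (isCompact_univ_pi fun _ => isCompact_univ_pi fun _ =>
    isCompact_Icc).tendsto_subseq hb
  have hu : Tendsto (fun j : ℕ => 1 / ((φ j : ℝ) + 1)) atTop (𝓝 0) :=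
    tendsto_one_div_add_atTop_nhds_zero_nat.comp hφ.tendsto_atTop
  have hp : Tendsto (fun j : ℕ => (1 / ((φ j : ℝ) + 1), W (φ j))) atTop
      (𝓝 ((0 : ℝ), (Matrix.of V : Matrix (Fin r) (Fin r) ℝ))) := hu.prodMk_nhds hV
  have hΦ : Continuous Φ := Φ.continuous_of_finiteDimensional
  have c1 : Continuous fun p : ℝ × Matrix (Fin r) (Fin r) ℝ =>
      fromBlocks (X + p.1 • (1 : Matrix (Fin n) (Fin n) ℝ)) Yᵀ Y p.2 :=
    Continuous.matrix_fromBlocks (by fun_prop) continuous_const continuous_const continuous_snd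
  have c2 : Continuous fun p : ℝ × Matrix (Fin r) (Fin r) ℝ =>
      Z + p.1 • (1 : Matrix (Fin m) (Fin m) ℝ) - Φ p.2 := by fun_prop
  have a1 := LimitA.closed.mem_of_tendsto ((c1.tendsto _).comp hp)
    (Eventually.of_forall fun j => h1 (φ j))
  have a2 := LimitA.closed.mem_of_tendsto ((c2.tendsto _).comp hp)
    (Eventually.of_forall fun j => h2 (φ j))
  simp only [zero_smul, add_zero] at a1 a2
  exact ⟨_, a1, a2⟩

end Vale.Agent.P256
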