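import Vale.Agent.P256.Path

namespace Vale.Agent.P256
open Matrix

theorem pre {n r m : ℕ}
    (Φ : Matrix (Fin r) (Fin r) ℝ →ₗ[ℝ] Matrix (Fin (m + 1)) (Fin (m + 1)) ℝ)
    (hpos : ∀ W : Matrix (Fin r) (Fin r) ℝ, W.PosSemidef → (Φ W).PosSemidef)
    (hs : ∀ W : Matrix (Fin r) (Fin r) ℝ, W.IsSymm → (Φ W).IsSymm)
    (X : Matrix (Fin n) (Fin n) ℝ) (Z : Matrix (Fin (m + 1)) (Fin (m + 1)) ℝ)
    (Y : Matrix (Fin r) (Fin n) ℝ) (hX : X.IsSymm) (hZ : Z.IsSymm)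
    (h : ∀ ε : ℝ, 0 < ε → ((1 + ε • X).det • (1 + ε • Z)
      - Φ ((ε • Y) * (1 + ε • X).adjugate * (ε • Y)ᵀ)).det ≠ 0) (u : ℝ) (hu : 0 < u) :
    ∃ W : Matrix (Fin r) (Fin r) ℝ, (fromBlocks (X + u • 1) Yᵀ Y W).PosSemidef ∧
      (Z + u • 1 - Φ W).PosSemidef := by
  set M : ℝ → Matrix (Fin (m + 1)) (Fin (m + 1)) ℝ := fun ε => (1 + ε • X).det • (1 + ε • Z)
      - Φ ((ε • Y) * (1 + ε • X).adjugate * (ε • Y)ᵀ) with hM
  have hΦ : Continuous Φ := LinearMap.continuous_of_finiteDimensional Φ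
  have hPc : Continuous fun ε : ℝ => (1 + ε • X : Matrix (Fin n) (Fin n) ℝ) := by fun_prop
  have hZc : Continuous fun ε : ℝ => (1 + ε • Z : Matrix (Fin (m + 1)) (Fin (m + 1)) ℝ) := by
    fun_prop
  have hYc : Continuous fun ε : ℝ => (ε • Y : Matrix (Fin r) (Fin n) ℝ) := by fun_prop
  have hMc : Continuous M :=
    (hPc.matrix_det.smul hZc).sub
      (hΦ.comp ((hYc.matrix_mul hPc.matrix_adjugate).matrix_mul hYc.matrix_transpose))
  have hPs : ∀ ε : ℝ, (1 + ε • X).IsSymm := fun ε => (Matrix.isSymm_one).add (hX.smul ε)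
  have hZs : ∀ ε : ℝ, (1 + ε • Z).IsSymm := fun ε => (Matrix.isSymm_one).add (hZ.smul ε)
  have hAs : ∀ ε : ℝ, ((ε • Y) * (1 + ε • X).adjugate * (ε • Y)ᵀ).IsSymm := by
    intro ε
    unfold Matrix.IsSymm
    rw [Matrix.transpose_mul, Matrix.transpose_mul, Matrix.transpose_transpose,
      Matrix.adjugate_transpose, (hPs ε).eq, Matrix.mul_assoc]
  have hMs : ∀ ε, (M ε).IsHermitian := by
    intro ε
    have : (M ε).IsSymm := ((hZs ε).smul _).sub (hs _ (hAs ε))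
    unfold Matrix.IsHermitian
    rw [conjTranspose_eq_transpose_of_trivial]
    exact this
  have hM0 : M 0 = 1 := by simp [hM]
  have hMpd : ∀ ε, 0 ≤ ε → (M ε).PosDef := by
    intro ε hε
    by_contra hc
    obtain ⟨c, hc1, -, hc3⟩ := path M hMc hMs (by rw [hM0]; exact PosDef.one) hε hc
    rcases hc1.1.eq_or_lt with h0 | h0
    · rw [← h0, hM0] at hc3
      simp at hc3
    · exact h c h0 hc3
  have hPpd : ∀ ε : ℝ, 0 ≤ ε → (1 + ε • X).PosDef := by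
    intro ε hε
    by_contra hc
    have hH : ∀ s : ℝ, (1 + s • X).IsHermitian := by
      intro s
      unfold Matrix.IsHermitian
      rw [conjTranspose_eq_transpose_of_trivial]
      exact hPs s
    obtain ⟨c, hc1, hc2, hc3⟩ := path (fun s : ℝ => 1 + s • X) hPc hH
      (by simpa using (PosDef.one : (1 : Matrix (Fin n) (Fin n) ℝ).PosDef)) hε hc
    have h1 : 0 < M c 0 0 := (hMpd c hc1.1).diag_pos
    have h2 : ((c • Y) * (1 + c • X).adjugate * (c • Y)ᵀ).PosSemidef := by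
      have := (adj_psd _ hc2).mul_mul_conjTranspose_same (c • Y)
      rwa [conjTranspose_eq_transpose_of_trivial] at this
    have h3 : 0 ≤ Φ ((c • Y) * (1 + c • X).adjugate * (c • Y)ᵀ) 0 0 := (hpos _ h2).diag_nonneg
    have hc3' : (1 + c • X).det = 0 := hc3
    simp only [hM, hc3', zero_smul, zero_sub, Matrix.neg_apply] at h1
    linarith
  have hu' : 0 < u⁻¹ := inv_pos.2 hu
  have hP := hPpd u⁻¹ hu'.le
  have hQe : X + u • 1 = u • (1 + u⁻¹ • X) := by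
    rw [smul_add, smul_smul, mul_inv_cancel₀ hu.ne', one_smul, add_comm]
  have hQ : (X + u • (1 : Matrix (Fin n) (Fin n) ℝ)).PosDef := by
    rw [hQe]; exact hP.smul hu
  have hQd : IsUnit (X + u • (1 : Matrix (Fin n) (Fin n) ℝ)).det := hQ.det_pos.ne'.isUnit
  have hd := hP.det_pos
  have hadj : (1 + u⁻¹ • X).adjugate =
      (u * (1 + u⁻¹ • X).det) • (X + u • (1 : Matrix (Fin n) (Fin n) ℝ))⁻¹ := by
    have h1 : (X + u • (1 : Matrix (Fin n) (Fin n) ℝ)) * (1 + u⁻¹ • X).adjugate =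
        (u * (1 + u⁻¹ • X).det) • (1 : Matrix (Fin n) (Fin n) ℝ) := by
      rw [hQe, Matrix.smul_mul, Matrix.mul_adjugate, smul_smul]
    have h2 := congrArg (fun A => (X + u • (1 : Matrix (Fin n) (Fin n) ℝ))⁻¹ * A) h1
    simp only [← Matrix.mul_assoc, Matrix.nonsing_inv_mul _ hQd, Matrix.one_mul, Matrix.mul_smul,
      Matrix.mul_one] at h2
    exact h2
  refine ⟨Y * (X + u • (1 : Matrix (Fin n) (Fin n) ℝ))⁻¹ * Yᵀ, ?_, ?_⟩
  · letI : Invertible (X + u • (1 : Matrix (Fin n) (Fin n) ℝ)) :=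
      Matrix.invertibleOfIsUnitDet _ hQd
    have := (PosDef.fromBlocks₁₁ Yᵀ (Y * (X + u • (1 : Matrix (Fin n) (Fin n) ℝ))⁻¹ * Yᵀ) hQ).2
    rw [conjTranspose_eq_transpose_of_trivial, Matrix.transpose_transpose, sub_self] at this
    exact this PosSemidef.zero
  · have hk : 0 < (1 + u⁻¹ • X).det * u⁻¹ := mul_pos hd hu'
    have he : M u⁻¹ = ((1 + u⁻¹ • X).det * u⁻¹) •
        (Z + u • 1 - Φ (Y * (X + u • (1 : Matrix (Fin n) (Fin n) ℝ))⁻¹ * Yᵀ)) := by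
      simp only [hM]
      rw [hadj, Matrix.transpose_smul]
      simp only [Matrix.smul_mul, Matrix.mul_smul, map_smul, smul_smul, smul_sub, smul_add]
      have e1 : (1 + u⁻¹ • X).det * u⁻¹ * u = (1 + u⁻¹ • X).det := by field_simp
      have e2 : u⁻¹ * (u * (1 + u⁻¹ • X).det * u⁻¹) = (1 + u⁻¹ • X).det * u⁻¹ := by field_simp
      rw [e1, e2]
      abel
    have h1 := (hMpd u⁻¹ hu'.le).posSemidef.smul (inv_pos.2 hk).le
    rw [he, smul_smul, inv_mul_cancel₀ hk.ne', one_smul] at h1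
    exact h1

end Vale.Agent.P256
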