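import Mathlib

namespace Vale.Agent.P256
open Matrix

theorem schur {n r m : ℕ}
    (Φ : Matrix (Fin r) (Fin r) ℝ →ₗ[ℝ] Matrix (Fin m) (Fin m) ℝ)
    (hpos : ∀ W : Matrix (Fin r) (Fin r) ℝ, W.PosSemidef → (Φ W).PosSemidef)
    (X : Matrix (Fin n) (Fin n) ℝ) (Z : Matrix (Fin m) (Fin m) ℝ) (Y : Matrix (Fin r) (Fin n) ℝ)
    (W : Matrix (Fin r) (Fin r) ℝ) (h1 : (fromBlocks X Yᵀ Y W).PosSemidef)
    (h2 : (Z - Φ W).PosSemidef) (ε : ℝ) (hε : 0 < ε) :
    ((1 + ε • X).det • (1 + ε • Z)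
      - Φ ((ε • Y) * (1 + ε • X).adjugate * (ε • Y)ᵀ)).det ≠ 0 := by
  have hX : X.PosSemidef := by
    have := h1.submatrix Sum.inl
    convert this using 1
    ext i j; simp
  have hP : (1 + ε • X).PosDef := PosDef.one.add_posSemidef (hX.smul hε.le)
  have hD : (fromBlocks (1 : Matrix (Fin n) (Fin n) ℝ) (0 : Matrix (Fin n) (Fin r) ℝ)
      (0 : Matrix (Fin r) (Fin n) ℝ) (0 : Matrix (Fin r) (Fin r) ℝ)).PosSemidef := by
    have := posSemidef_conjTranspose_mul_self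
      (fromBlocks (1 : Matrix (Fin n) (Fin n) ℝ) (0 : Matrix (Fin n) (Fin r) ℝ)
      (0 : Matrix (Fin r) (Fin n) ℝ) (0 : Matrix (Fin r) (Fin r) ℝ))
    rw [fromBlocks_conjTranspose, fromBlocks_multiply] at this
    simpa using this
  have hB : (fromBlocks (1 + ε • X) (ε • Y)ᵀ (ε • Y) (ε • W)).PosSemidef := by
    have := hD.add (h1.smul hε.le)
    convert this using 1
    rw [fromBlocks_smul, fromBlocks_add]
    simp
  let _ : Invertible (1 + ε • X) := hP.isUnit.invertible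
  have hS : (ε • W - (ε • Y) * (1 + ε • X)⁻¹ * (ε • Y)ᵀ).PosSemidef := by
    have := (PosDef.fromBlocks₁₁ (ε • Y)ᵀ (ε • W) hP).mp (by
      simpa only [conjTranspose_eq_transpose_of_trivial, transpose_transpose] using hB)
    simpa only [conjTranspose_eq_transpose_of_trivial, transpose_transpose] using this
  have hd : 0 < (1 + ε • X).det := hP.det_pos
  have hadj : (1 + ε • X).adjugate = (1 + ε • X).det • (1 + ε • X)⁻¹ := by
    rw [Matrix.inv_def, smul_smul, Ring.mul_inverse_cancel _ (isUnit_iff_ne_zero.mpr hd.ne'),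
      one_smul]
  have e : (1 + ε • X).det • (1 + ε • Z) - Φ ((ε • Y) * (1 + ε • X).adjugate * (ε • Y)ᵀ) =
      (1 + ε • X).det • (1 + (ε • (Z - Φ W) +
        Φ (ε • W - (ε • Y) * (1 + ε • X)⁻¹ * (ε • Y)ᵀ))) := by
    rw [hadj, Matrix.mul_smul, Matrix.smul_mul, map_smul, ← smul_sub, map_sub, map_smul]
    congr 1
    module
  rw [e]
  exact ((PosDef.one.add_posSemidef ((h2.smul hε.le).add (hpos _ hS))).smul hd).det_pos.ne'

end Vale.Agent.P256
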