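import Vale.Agent.P256.Defs

namespace Vale.Agent.P256
open Matrix

theorem shadow_diag {α β : Type} [Fintype α] [Fintype β] (P : Matrix α α ℝ) (Q : Matrix β β ℝ) :
    (fromBlocks P 0 0 Q).PosSemidef ↔ P.PosSemidef ∧ Q.PosSemidef := by
  constructor
  · intro h
    exact ⟨h.submatrix Sum.inl, h.submatrix Sum.inr⟩
  · rintro ⟨hP, hQ⟩
    refine PosSemidef.of_dotProduct_mulVec_nonneg (IsHermitian.fromBlocks hP.1 (by simp) hQ.1) ?_
    intro x
    rw [fromBlocks_mulVec, dotProduct_block]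
    have h1 := hP.dotProduct_mulVec_nonneg (x ∘ Sum.inl)
    have h2 := hQ.dotProduct_mulVec_nonneg (x ∘ Sum.inr)
    simp only [star_trivial, zero_mulVec, add_zero, zero_add, Sum.elim_comp_inl,
      Sum.elim_comp_inr] at h1 h2 ⊢
    exact add_nonneg h1 h2

theorem shadow_sum {α β ι : Type} [Fintype ι] (c : ι → ℝ) (P : ι → Matrix α α ℝ)
    (Q : ι → Matrix α β ℝ) (R : ι → Matrix β α ℝ) (S : ι → Matrix β β ℝ) :
    ∑ i, c i • fromBlocks (P i) (Q i) (R i) (S i) =
      fromBlocks (∑ i, c i • P i) (∑ i, c i • Q i) (∑ i, c i • R i) (∑ i, c i • S i) := by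
  ext a b
  rcases a with a | a <;> rcases b with b | b <;> simp [Matrix.sum_apply]

/-- symmetric elementary matrices -/
def symE {r : ℕ} (j : Fin r × Fin r) : Matrix (Fin r) (Fin r) ℝ :=
  Matrix.single j.1 j.2 1 + Matrix.single j.2 j.1 1

theorem symE_symm {r : ℕ} (j : Fin r × Fin r) : (symE j).IsSymm := by
  unfold symE Matrix.IsSymm
  rw [transpose_add, transpose_single, transpose_single, add_comm]

theorem symE_sum {r : ℕ} (W : Matrix (Fin r) (Fin r) ℝ) (hW : W.IsSymm) :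
    ∑ j : Fin r × Fin r, (W j.1 j.2 / 2) • symE j = W := by
  have h1 : ∑ j : Fin r × Fin r, (W j.1 j.2 / 2) • Matrix.single j.1 j.2 (1 : ℝ) =
      (1 / 2 : ℝ) • W := by
    conv_rhs => rw [Matrix.matrix_eq_sum_single W]
    rw [Fintype.sum_prod_type, Finset.smul_sum]
    refine Finset.sum_congr rfl fun a _ => ?_
    rw [Finset.smul_sum]
    refine Finset.sum_congr rfl fun b _ => ?_
    rw [Matrix.smul_single, Matrix.smul_single, smul_eq_mul, smul_eq_mul]
    congr 1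
    ring
  have h2 : ∑ j : Fin r × Fin r, (W j.1 j.2 / 2) • Matrix.single j.2 j.1 (1 : ℝ) =
      (1 / 2 : ℝ) • W := by
    have h3 := congrArg Matrix.transpose h1
    rw [transpose_smul, hW.eq, transpose_sum] at h3
    rw [← h3]
    refine Finset.sum_congr rfl fun j _ => ?_
    rw [transpose_smul, transpose_single]
  simp only [symE, smul_add, Finset.sum_add_distrib]
  rw [h1, h2, ← add_smul]
  norm_num

theorem shadow {k n r m : ℕ} (A : Fin k → Matrix (Fin n) (Fin n) ℝ)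
    (C : Fin k → Matrix (Fin m) (Fin m) ℝ) (B : Fin k → Matrix (Fin r) (Fin n) ℝ)
    (hA : ∀ i, (A i).IsSymm) (hC : ∀ i, (C i).IsSymm)
    (Φ : Matrix (Fin r) (Fin r) ℝ →ₗ[ℝ] Matrix (Fin m) (Fin m) ℝ)
    (hs : ∀ W : Matrix (Fin r) (Fin r) ℝ, W.IsSymm → (Φ W).IsSymm) :
    IsShadow {x : Fin k → ℝ | ∃ W : Matrix (Fin r) (Fin r) ℝ,
      (fromBlocks (∑ i, x i • A i) (∑ i, x i • B i)ᵀ (∑ i, x i • B i) W).PosSemidef ∧
      (∑ i, x i • C i - Φ W).PosSemidef} := by
  refine ⟨(Fin n ⊕ Fin r) ⊕ Fin m, Fin r × Fin r, inferInstance, inferInstance, 0,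
    fun i => fromBlocks (fromBlocks (A i) (B i)ᵀ (B i) 0) 0 0 (C i),
    fun j => fromBlocks (fromBlocks 0 0 0 (symE j)) 0 0 (-Φ (symE j)), isSymm_zero,
    fun i => IsSymm.fromBlocks (IsSymm.fromBlocks (hA i) (transpose_transpose _) isSymm_zero)
      transpose_zero (hC i),
    fun j => IsSymm.fromBlocks (IsSymm.fromBlocks isSymm_zero transpose_zero (symE_symm j))
      transpose_zero (hs _ (symE_symm j)).neg, ?_⟩
  have key : ∀ (x : Fin k → ℝ) (u : Fin r × Fin r → ℝ),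
      (0 + ∑ i, x i • fromBlocks (fromBlocks (A i) (B i)ᵀ (B i) 0) 0 0 (C i) +
        ∑ j, u j • fromBlocks (fromBlocks 0 0 0 (symE j)) 0 0 (-Φ (symE j)) :
          Matrix ((Fin n ⊕ Fin r) ⊕ Fin m) ((Fin n ⊕ Fin r) ⊕ Fin m) ℝ) =
      fromBlocks (fromBlocks (∑ i, x i • A i) (∑ i, x i • B i)ᵀ (∑ i, x i • B i)
        (∑ j, u j • symE j)) 0 0 (∑ i, x i • C i - Φ (∑ j, u j • symE j)) := by
    intro x u
    rw [zero_add, shadow_sum, shadow_sum, shadow_sum, shadow_sum, fromBlocks_add, fromBlocks_add]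
    simp only [smul_zero, Finset.sum_const_zero, add_zero, zero_add, map_sum, map_smul, smul_neg,
      Finset.sum_neg_distrib, transpose_sum, transpose_smul, sub_eq_add_neg]
  ext x
  simp only [Set.mem_setOf_eq]
  constructor
  · rintro ⟨W, h1, h2⟩
    have hW : W.IsSymm := by
      have h3 : W.PosSemidef := h1.submatrix Sum.inr
      have h4 := h3.1
      rwa [IsHermitian, conjTranspose_eq_transpose_of_trivial] at h4
    refine ⟨fun j => W j.1 j.2 / 2, ?_⟩
    rw [key, shadow_diag, symE_sum W hW]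
    exact ⟨h1, h2⟩
  · rintro ⟨u, hu⟩
    rw [key, shadow_diag] at hu
    exact ⟨_, hu⟩

end Vale.Agent.P256
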