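import Vale.Agent.P256.Poly
import Vale.Agent.P256.Cx
import Vale.Agent.P256.Pre
import Vale.Agent.P256.Limit
import Vale.Agent.P256.Schur
import Vale.Agent.P256.Shadow

namespace Vale.Agent.P256
open Matrix

theorem symm_of_pos {r m : ℕ}
    (Φ : Matrix (Fin r) (Fin r) ℝ →ₗ[ℝ] Matrix (Fin m) (Fin m) ℝ)
    (hpos : ∀ W : Matrix (Fin r) (Fin r) ℝ, W.PosSemidef → (Φ W).PosSemidef)
    (W : Matrix (Fin r) (Fin r) ℝ) (hW : W.IsSymm) : (Φ W).IsSymm := by
  have h1 : ((W + 1)ᴴ * (W + 1)).PosSemidef := posSemidef_conjTranspose_mul_self _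
  have h2 : ((W - 1)ᴴ * (W - 1)).PosSemidef := posSemidef_conjTranspose_mul_self _
  have e : W = (1 / 4 : ℝ) • ((W + 1)ᴴ * (W + 1) - (W - 1)ᴴ * (W - 1)) := by
    simp only [conjTranspose_eq_transpose_of_trivial, transpose_add, transpose_sub, transpose_one,
      hW.eq]
    have : (W + 1) * (W + 1) - (W - 1) * (W - 1) = (4 : ℝ) • W := by
      rw [show (4 : ℝ) • W = W + W + W + W by module]
      noncomm_ring
    rw [this, smul_smul]; norm_num
  have s1 := (hpos _ h1).isHermitian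
  have s2 := (hpos _ h2).isHermitian
  rw [IsHermitian, conjTranspose_eq_transpose_of_trivial] at s1 s2
  rw [e, map_smul, map_sub, IsSymm, transpose_smul, transpose_sub, s1, s2]

theorem sum_symm {k n : ℕ} (A : Fin k → Matrix (Fin n) (Fin n) ℝ) (hA : ∀ i, (A i).IsSymm)
    (x : Fin k → ℝ) : (∑ i, x i • A i).IsSymm := by
  rw [IsSymm, transpose_sum]
  exact Finset.sum_congr rfl fun i _ => by rw [transpose_smul, (hA i).eq]

theorem eval_poly {k n r m : ℕ} (A : Fin k → Matrix (Fin n) (Fin n) ℝ)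
    (C : Fin k → Matrix (Fin m) (Fin m) ℝ) (B : Fin k → Matrix (Fin r) (Fin n) ℝ)
    (Φ : Matrix (Fin r) (Fin r) ℝ →ₗ[ℝ] Matrix (Fin m) (Fin m) ℝ) (x : Fin k → ℝ) :
    MvPolynomial.eval x (MM Φ (lin A) (lin C) (lin B)).det =
      ((∑ i, x i • A i).det • (∑ i, x i • C i) -
        Φ ((∑ i, x i • B i) * (∑ i, x i • A i).adjugate * (∑ i, x i • B i)ᵀ)).det := by
  have h : ∀ {a b : ℕ} (D : Fin k → Matrix (Fin a) (Fin b) ℝ),
      (lin D).map (MvPolynomial.aeval x) = ∑ i, x i • D i := by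
    intro a b D
    rw [lin_map]
    ext p q
    simp [Matrix.sum_apply, mul_comm]
  rw [← MvPolynomial.coe_aeval_eq_eval]
  have := map_MM Φ (MvPolynomial.aeval x) (lin A) (lin C) (lin B)
  rw [h, h, h] at this
  refine this.trans ?_
  rw [MM, ext_real]

theorem scale {n r m : ℕ}
    (Φ : Matrix (Fin r) (Fin r) ℝ →ₗ[ℝ] Matrix (Fin m) (Fin m) ℝ) (t : ℝ)
    (X : Matrix (Fin (n + 1)) (Fin (n + 1)) ℝ) (Z : Matrix (Fin m) (Fin m) ℝ)
    (Y : Matrix (Fin r) (Fin (n + 1)) ℝ) :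
    ((t • X).det • (t • Z) - Φ ((t • Y) * (t • X).adjugate * (t • Y)ᵀ)).det =
      (t ^ (n + 2)) ^ m * (X.det • Z - Φ (Y * X.adjugate * Yᵀ)).det := by
  have : (t • X).det • (t • Z) - Φ ((t • Y) * (t • X).adjugate * (t • Y)ᵀ) =
      (t ^ (n + 2)) • (X.det • Z - Φ (Y * X.adjugate * Yᵀ)) := by
    rw [det_smul, adjugate_smul, transpose_smul]
    simp only [Fintype.card_fin, Nat.add_sub_cancel, Matrix.smul_mul, Matrix.mul_smul, map_smul,
      smul_smul, smul_sub]
    congr 2 <;> ring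
  rw [this, det_smul, Fintype.card_fin]

theorem main {k n r m : ℕ} (A : Fin k → Matrix (Fin (n + 1)) (Fin (n + 1)) ℝ)
    (C : Fin k → Matrix (Fin (m + 1)) (Fin (m + 1)) ℝ)
    (B : Fin k → Matrix (Fin r) (Fin (n + 1)) ℝ)
    (hA : ∀ i, (A i).IsSymm) (hC : ∀ i, (C i).IsSymm) (e : Fin k → ℝ)
    (heA : ∑ i, e i • A i = 1) (heC : ∑ i, e i • C i = 1) (heB : ∑ i, e i • B i = 0)
    (Φ : Matrix (Fin r) (Fin r) ℝ →ₗ[ℝ] Matrix (Fin (m + 1)) (Fin (m + 1)) ℝ)
    (hpos : ∀ W : Matrix (Fin r) (Fin r) ℝ, W.PosSemidef → (Φ W).PosSemidef) (c : ℝ)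
    (hc : ∀ W : Matrix (Fin r) (Fin r) ℝ, W.PosSemidef → W.trace ≤ c * (Φ W).trace) :
    ∃ p : MvPolynomial (Fin k) ℝ,
      (∀ x : Fin k → ℝ, MvPolynomial.eval x p =
        ((∑ i, x i • A i).det • (∑ i, x i • C i) -
          Φ ((∑ i, x i • B i) * (∑ i, x i • A i).adjugate * (∑ i, x i • B i)ᵀ)).det) ∧
      Hyperbolic p e ∧ IsShadow (cone p e) := by
  have hs := symm_of_pos Φ hpos
  refine ⟨(MM Φ (lin A) (lin C) (lin B)).det, eval_poly A C B Φ, ⟨⟨_, poly_homog A C B Φ⟩, ?_, ?_⟩,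
    ?_⟩
  · rw [eval_poly, heA, heC, heB]; simp
  · intro x t h0
    by_contra ht
    apply cx_ne Φ hpos hs _ _ (∑ i, x i • B i) (sum_symm A hA x) (sum_symm C hC x) t ht
    have h : ∀ {a b : ℕ} (D : Fin k → Matrix (Fin a) (Fin b) ℝ),
        (lin D).map (MvPolynomial.aeval (fun i => t * (e i : ℂ) - (x i : ℂ))) =
          t • (∑ i, e i • D i).map (fun a => (a : ℂ)) -
            (∑ i, x i • D i).map (fun a => (a : ℂ)) := by
      intro a b D
      rw [lin_map]
      ext p q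
      simp only [Matrix.of_apply, Complex.coe_algebraMap, Matrix.sub_apply, Matrix.smul_apply,
        Matrix.map_apply, Matrix.sum_apply, smul_eq_mul, Complex.ofReal_sum, Complex.ofReal_mul,
        Finset.mul_sum, ← Finset.sum_sub_distrib]
      exact Finset.sum_congr rfl fun i _ => by ring
    rw [map_MM, h, h, h, heA, heC, heB] at h0
    have o1 : ∀ {a : ℕ}, (1 : Matrix (Fin a) (Fin a) ℝ).map (fun a => (a : ℂ)) = 1 := by
      intro a
      exact Matrix.map_one _ (by simp) (by simp)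
    have o2 : (0 : Matrix (Fin r) (Fin (n + 1)) ℝ).map (fun a => (a : ℂ)) = 0 := by
      ext p q; simp
    rw [o1, o1, o2, smul_zero, zero_sub] at h0
    exact h0
  · have key : ∀ (x : Fin k → ℝ) (ε : ℝ), 0 < ε →
        (MvPolynomial.eval ((-ε⁻¹) • e - x) (MM Φ (lin A) (lin C) (lin B)).det = 0 ↔
          ((1 + ε • ∑ i, x i • A i).det • (1 + ε • ∑ i, x i • C i) -
            Φ ((ε • ∑ i, x i • B i) * (1 + ε • ∑ i, x i • A i).adjugate *
              (ε • ∑ i, x i • B i)ᵀ)).det = 0) := by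
      intro x ε hε
      have h : ∀ {a b : ℕ} (D : Fin k → Matrix (Fin a) (Fin b) ℝ),
          ∑ i, ((-ε⁻¹) • e - x) i • D i = (-ε⁻¹) • (∑ i, e i • D i + ε • ∑ i, x i • D i) := by
        intro a b D
        rw [smul_add, smul_smul, Finset.smul_sum, Finset.smul_sum, ← Finset.sum_add_distrib]
        refine Finset.sum_congr rfl fun i _ => ?_
        rw [smul_smul, smul_smul, ← add_smul]
        congr 1
        simp only [Pi.sub_apply, Pi.smul_apply, smul_eq_mul]
        field_simp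
        ring
      rw [eval_poly, h, h, h, heA, heC, heB, scale, zero_add, mul_eq_zero]
      have : ((-ε⁻¹) ^ (n + 2)) ^ (m + 1) ≠ 0 :=
        pow_ne_zero _ (pow_ne_zero _ (neg_ne_zero.mpr (inv_ne_zero hε.ne')))
      simp [this]
    have hK : cone (MM Φ (lin A) (lin C) (lin B)).det e =
        {x : Fin k → ℝ | ∃ W : Matrix (Fin r) (Fin r) ℝ,
          (fromBlocks (∑ i, x i • A i) (∑ i, x i • B i)ᵀ (∑ i, x i • B i) W).PosSemidef ∧
          (∑ i, x i • C i - Φ W).PosSemidef} := by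
      ext x
      constructor
      · intro hx
        refine limit Φ c hc hpos _ _ _ fun u hu => ?_
        refine pre Φ hpos hs _ _ _ (sum_symm A hA x) (sum_symm C hC x) (fun ε hε h0 => ?_) u hu
        have := hx _ ((key x ε hε).mpr h0)
        have h2 : 0 < ε⁻¹ := inv_pos.mpr hε
        linarith
      · rintro ⟨W, h1, h2⟩ t ht
        by_contra hneg
        have hneg' : 0 < (-t)⁻¹ := inv_pos.mpr (by linarith)
        have e1 : t = -((-t)⁻¹)⁻¹ := by simp
        rw [e1] at ht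
        exact schur Φ hpos _ _ _ W h1 h2 _ hneg' ((key x _ hneg').mp ht)
    rw [hK]
    exact shadow A C B hA hC Φ hs

end Vale.Agent.P256
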